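import Vale.Agent.P156.Stm

namespace Vale.Agent.P156

open Finset Polynomial

theorem algA : AlgA := by
  classical
  intro n G E hE
  have hm : (chi G).Monic := Matrix.charpoly_monic _
  have h1 : G.adjMatrix ℝ = (G.adjMatrix ℤ).map (Int.castRingHom ℝ) := by
    ext i j
    simp only [SimpleGraph.adjMatrix_apply, Matrix.map_apply]
    split_ifs <;> simp
  have h2 : aeval E (chi G) = 0 := by
    unfold IsEig at hE
    rw [Matrix.mem_spectrum_iff_isRoot_charpoly, h1, Matrix.charpoly_map, IsRoot.def,
      eval_map] at hE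
    rw [aeval_def]
    exact hE
  have h3 : IsIntegral ℤ E := ⟨chi G, hm, by rw [← aeval_def]; exact h2⟩
  exact ⟨hm, h3, minpoly.isIntegrallyClosed_dvd h3 h2⟩

end Vale.Agent.P156
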