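import Vale.Agent.P156.Stm

namespace Vale.Agent.P156

open Finset Polynomial

theorem AlgB_det {n : ℕ} (M : Matrix (Fin n) (Fin n) ℤ) (p : ℕ) [Fact p.Prime] (k : ℤ)
    (h : (p : ℤ) ∣ M.charpoly.eval k) :
    ∃ v : Fin n → ZMod p, v ≠ 0 ∧
      (M.map (Int.castRingHom (ZMod p))).mulVec v = (k : ZMod p) • v := by
  have h1 : ((M.charpoly.eval k : ℤ) : ZMod p) = 0 :=
    (ZMod.intCast_zmod_eq_zero_iff_dvd _ p).2 h
  have h2 : (M.map (Int.castRingHom (ZMod p))).charpoly.eval (k : ZMod p) = 0 := by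
    rw [Matrix.charpoly_map]
    have := Polynomial.eval_intCast_map (Int.castRingHom (ZMod p)) M.charpoly k
    rw [this]
    simpa using h1
  rw [Matrix.eval_charpoly] at h2
  obtain ⟨v, hv, hv0⟩ := Matrix.exists_mulVec_eq_zero_iff.2 h2
  refine ⟨v, hv, ?_⟩
  rw [Matrix.sub_mulVec, sub_eq_zero] at hv0
  rw [← hv0]
  ext i
  simp

theorem algB : AlgB := by
  classical
  intro n G p _ k h
  obtain ⟨v, hv, hv0⟩ := AlgB_det (G.adjMatrix ℤ) p k h
  refine ⟨v, hv, fun u => ?_⟩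
  have h1 := congrFun hv0 u
  simp only [Matrix.mulVec, dotProduct, Matrix.map_apply, SimpleGraph.adjMatrix_apply,
    Pi.smul_apply, smul_eq_mul] at h1
  rw [← h1, nbr, Finset.sum_filter]
  refine Finset.sum_congr rfl fun w _ => ?_
  by_cases hw : G.Adj u w <;> simp [hw]

end Vale.Agent.P156
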