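import Vale.Agent.P156.Stm

namespace Vale.Agent.P156

open Finset Polynomial

theorem asy : Asy := by
  intro k d ρ ε h0 h1 hε
  obtain ⟨r, hr⟩ : ∃ r : ℝ, r = (1 + ρ) / 2 := ⟨_, rfl⟩
  have hr0 : 0 < r := by rw [hr]; positivity
  have hr1 : r < 1 := by rw [hr]; linarith
  have hρ : ρ ≤ r ^ 2 := by rw [hr]; nlinarith [sq_nonneg (1 - ρ)]
  have ht := tendsto_pow_const_mul_const_pow_of_abs_lt_one (2 * k) (r := r)
    (by rw [abs_of_pos hr0]; exact hr1)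
  have ht2 := (ht.comp (Filter.tendsto_add_atTop_nat 1)).const_mul ((3 * ((d : ℝ) + 1)) ^ k / r)
  rw [mul_zero] at ht2
  obtain ⟨n0, hn0⟩ := Filter.eventually_atTop.1 (ht2.eventually (ge_mem_nhds hε))
  refine ⟨n0, fun n hn m hm => le_trans ?_ (hn0 n hn)⟩
  have hn' : (0 : ℝ) ≤ n := Nat.cast_nonneg n
  have hd' : (0 : ℝ) ≤ d := Nat.cast_nonneg d
  have e1 : ρ ^ m ≤ r ^ n := by
    calc ρ ^ m ≤ (r ^ 2) ^ m := pow_le_pow_left₀ h0 hρ m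
      _ = r ^ (2 * m) := by rw [pow_mul]
      _ ≤ r ^ n := pow_le_pow_of_le_one hr0.le hr1.le hm
  have e2 : (3 * (((n * d : ℕ) : ℝ) + 1)) ^ k ≤ (3 * ((d : ℝ) + 1)) ^ k * ((n : ℝ) + 1) ^ k := by
    rw [← mul_pow]
    refine pow_le_pow_left₀ (by positivity) ?_ k
    push_cast
    nlinarith [mul_nonneg hn' hd']
  have e3 : (3 * ((d : ℝ) + 1)) ^ k / r * ((((n + 1 : ℕ) : ℝ)) ^ (2 * k) * r ^ (n + 1)) =
      (3 * ((d : ℝ) + 1)) ^ k * ((n : ℝ) + 1) ^ k * ((n : ℝ) + 1) ^ k * r ^ n := by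
    push_cast
    rw [two_mul, pow_add, pow_succ]
    field_simp
  show _ ≤ (3 * ((d : ℝ) + 1)) ^ k / r * ((((n + 1 : ℕ) : ℝ)) ^ (2 * k) * r ^ (n + 1))
  rw [e3]
  exact mul_le_mul (mul_le_mul_of_nonneg_right e2 (by positivity)) e1 (by positivity)
    (by positivity)

end Vale.Agent.P156
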