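import Vale.Agent.P156.Defs

namespace Vale.Agent.P156

open Finset

/-- positions (half edges) : edge number and end -/
abbrev Pos (M : ℕ) := Fin M × Bool

/-- the other end of the same edge -/
def fl {M : ℕ} (x : Pos M) : Pos M := (x.1, !x.2)

@[simp] theorem fl_fl {M : ℕ} (x : Pos M) : fl (fl x) = x := by simp [fl]
@[simp] theorem fl_false {M : ℕ} (j : Fin M) : fl (j, false) = (j, true) := rfl
@[simp] theorem fl_true {M : ℕ} (j : Fin M) : fl (j, true) = (j, false) := rfl
@[simp] theorem fl_fst {M : ℕ} (x : Pos M) : (fl x).1 = x.1 := rfl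
theorem fl_ne {M : ℕ} (x : Pos M) : fl x ≠ x := by
  rcases x with ⟨j, b⟩; cases b <;> simp [fl]
theorem fl_inj {M : ℕ} : Function.Injective (fl : Pos M → Pos M) :=
  fun x y h => by rw [← fl_fl x, h, fl_fl]
theorem card_pos' (M : ℕ) : Fintype.card (Pos M) = 2 * M := by simp [mul_comm]
theorem card_perm' (M : ℕ) : Fintype.card (Equiv.Perm (Pos M)) = (2 * M).factorial := by
  rw [Fintype.card_perm, card_pos']

/-- size of a fibre -/
def cnt {α X : Type} [Fintype α] [DecidableEq X] (g : α → X) (x : X) : ℕ :=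
  (univ.filter fun a => g a = x).card

theorem cnt_perm {α X : Type} [Fintype α] [DecidableEq X] (g : α → X) (σ : Equiv.Perm α)
    (x : X) : cnt (g ∘ σ) x = cnt g x := by
  unfold cnt
  exact Finset.card_bijective σ σ.bijective (by simp)

theorem sum_cnt {α X : Type} [Fintype α] [Fintype X] [DecidableEq X] (g : α → X) :
    ∑ x, cnt g x = Fintype.card α := by
  unfold cnt
  rw [← Finset.card_univ, Finset.card_eq_sum_card_fiberwise (f := g) (t := univ) (by simp)]

theorem cnt_le {α X : Type} [Fintype α] [DecidableEq X] (g : α → X) (x : X) :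
    cnt g x ≤ Fintype.card α := Finset.card_le_univ _

/-- functions of a given type -/
def Ty {α X : Type} [Fintype α] [DecidableEq α] [Fintype X] [DecidableEq X] (m : X → ℕ) :
    Finset (α → X) := univ.filter fun g => ∀ x, cnt g x = m x

@[simp] theorem mem_Ty {α X : Type} [Fintype α] [DecidableEq α] [Fintype X] [DecidableEq X]
    (m : X → ℕ) (g : α → X) : g ∈ Ty m ↔ ∀ x, cnt g x = m x := by simp [Ty]

/-- permutations sending `x i` into `B i` -/
def hitS {α ι : Type} [Fintype α] [DecidableEq α] [Fintype ι] (x : ι → α) (B : ι → Finset α) :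
    Finset (Equiv.Perm α) := univ.filter fun σ => ∀ i, σ (x i) ∈ B i

@[simp] theorem mem_hitS {α ι : Type} [Fintype α] [DecidableEq α] [Fintype ι] (x : ι → α)
    (B : ι → Finset α) (σ : Equiv.Perm α) : σ ∈ hitS x B ↔ ∀ i, σ (x i) ∈ B i := by simp [hitS]

variable {M n : ℕ}

/-- every vertex owns `d` positions -/
def Fib (d : ℕ) (τ : Pos M → Fin n) : Prop := ∀ u, cnt τ u = d

theorem Fib.perm {d : ℕ} {τ : Pos M → Fin n} (h : Fib d τ) (σ : Equiv.Perm (Pos M)) :
    Fib d (τ ∘ σ) := fun u => by rw [cnt_perm]; exact h u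

open Classical in
/-- permutations `σ` such that `t ∘ σ` has the property `P` -/
noncomputable def sP (t : Pos M → Fin n) (P : (Pos M → Fin n) → Prop) :
    Finset (Equiv.Perm (Pos M)) := univ.filter fun σ => P (t ∘ σ)

@[simp] theorem mem_sP (t : Pos M → Fin n) (P : (Pos M → Fin n) → Prop)
    (σ : Equiv.Perm (Pos M)) : σ ∈ sP t P ↔ P (t ∘ σ) := by simp [sP]

/-- their number -/
noncomputable def nP (t : Pos M → Fin n) (P : (Pos M → Fin n) → Prop) : ℕ := (sP t P).card

theorem nP_mono (t : Pos M → Fin n) {P Q : (Pos M → Fin n) → Prop}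
    (h : ∀ σ : Equiv.Perm (Pos M), P (t ∘ σ) → Q (t ∘ σ)) : nP t P ≤ nP t Q :=
  card_le_card fun σ hσ => by rw [mem_sP] at hσ ⊢; exact h σ hσ

theorem nP_le (t : Pos M → Fin n) (P : (Pos M → Fin n) → Prop) : nP t P ≤ (2 * M).factorial := by
  rw [← card_perm']; exact Finset.card_le_univ _

/-- `A v = e v` for the multigraph of `τ` -/
def Sol {p : ℕ} (e : ZMod p) (τ : Pos M → Fin n) (v : Fin n → ZMod p) : Prop :=
  ∀ u, ∑ x ∈ univ.filter (fun x => τ x = u), v (τ (fl x)) = e * v u

/-- edge number `j` -/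
def ed (τ : Pos M → Fin n) (j : Fin M) : Sym2 (Fin n) := s(τ (j, false), τ (j, true))

/-- edge `j` is a loop or has a parallel edge -/
def Dfc (τ : Pos M → Fin n) (j : Fin M) : Prop :=
  τ (j, false) = τ (j, true) ∨ ∃ i, i ≠ j ∧ ed τ i = ed τ j

open Classical in
/-- defective edges -/
noncomputable def dS (τ : Pos M → Fin n) : Finset (Fin M) := univ.filter (Dfc τ)

@[simp] theorem mem_dS (τ : Pos M → Fin n) (j : Fin M) : j ∈ dS τ ↔ Dfc τ j := by simp [dS]

/-- number of defective edges -/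
noncomputable def Df (τ : Pos M → Fin n) : ℕ := (dS τ).card

/-- no loop, no multiple edge -/
def Simp (τ : Pos M → Fin n) : Prop := ∀ j, ¬ Dfc τ j

theorem simp_iff (τ : Pos M → Fin n) : Simp τ ↔ Df τ = 0 := by
  simp [Simp, Df, Finset.eq_empty_iff_forall_notMem]

/-- the simple graph of `τ` -/
def Gr (τ : Pos M → Fin n) : SimpleGraph (Fin n) :=
  SimpleGraph.fromRel fun u w => ∃ x, τ x = u ∧ τ (fl x) = w

/-- neighbours in the multigraph -/
def Nb (τ : Pos M → Fin n) (b : Fin n) : Finset (Fin n) :=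
  (univ.filter fun x => τ x = b).image fun x => τ (fl x)

theorem mem_Nb (τ : Pos M → Fin n) (b w : Fin n) :
    w ∈ Nb τ b ↔ ∃ x, τ x = b ∧ τ (fl x) = w := by simp [Nb]

theorem card_Nb {d : ℕ} {τ : Pos M → Fin n} (h : Fib d τ) (b : Fin n) : (Nb τ b).card ≤ d :=
  le_trans card_image_le (le_of_eq (h b))

/-- the switching : exchange the values at `(j, false)` and at `y` -/
def sw (τ : Pos M → Fin n) (j : Fin M) (y : Pos M) : Pos M → Fin n :=
  τ ∘ Equiv.swap (j, false) y

open Classical in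
/-- switchings that lower the number of defects -/
noncomputable def goodS (τ : Pos M → Fin n) (j : Fin M) : Finset (Pos M) :=
  univ.filter fun y => y.1 ≠ j ∧ Df (sw τ j y) < Df τ ∧ sw τ j y (j, false) ≠ sw τ j y (j, true)

@[simp] theorem mem_goodS (τ : Pos M → Fin n) (j : Fin M) (y : Pos M) : y ∈ goodS τ j ↔
    y.1 ≠ j ∧ Df (sw τ j y) < Df τ ∧ sw τ j y (j, false) ≠ sw τ j y (j, true) := by simp [goodS]

open Classical in
/-- switchings that make `j` defective -/
noncomputable def bwdS (τ : Pos M → Fin n) (j : Fin M) : Finset (Pos M) :=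
  univ.filter fun y => y.1 ≠ j ∧ Dfc (sw τ j y) j

@[simp] theorem mem_bwdS (τ : Pos M → Fin n) (j : Fin M) (y : Pos M) : y ∈ bwdS τ j ↔
    y.1 ≠ j ∧ Dfc (sw τ j y) j := by simp [bwdS]

/-- number of edges inside `U` -/
def inn (τ : Pos M → Fin n) (U : Finset (Fin n)) : ℕ :=
  (univ.filter fun j : Fin M => τ (j, false) ∈ U ∧ τ (j, true) ∈ U).card

open Classical in
/-- neighbours in a simple graph -/
noncomputable def nbr (G : SimpleGraph (Fin n)) (u : Fin n) : Finset (Fin n) :=
  univ.filter (G.Adj u)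

@[simp] theorem mem_nbr (G : SimpleGraph (Fin n)) (u w : Fin n) : w ∈ nbr G u ↔ G.Adj u w := by
  simp [nbr]

theorem card_nbr (G : SimpleGraph (Fin n)) (u : Fin n) :
    (nbr G u).card = (G.neighborSet u).ncard := by
  rw [← Set.ncard_coe_finset]; congr 1; ext w; simp

open Classical in
/-- simple configurations with graph `G` -/
noncomputable def fibS (M : ℕ) (G : SimpleGraph (Fin n)) : Finset (Pos M → Fin n) :=
  univ.filter fun τ => Simp τ ∧ Gr τ = G

@[simp] theorem mem_fibS (G : SimpleGraph (Fin n)) (τ : Pos M → Fin n) :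
    τ ∈ fibS M G ↔ Simp τ ∧ Gr τ = G := by simp [fibS]

/-- permutations of the positions that commute with `fl` -/
def comS (M : ℕ) : Finset (Equiv.Perm (Pos M)) := univ.filter fun π => ∀ x, π (fl x) = fl (π x)

@[simp] theorem mem_comS (π : Equiv.Perm (Pos M)) :
    π ∈ comS M ↔ ∀ x, π (fl x) = fl (π x) := by simp [comS]

open Classical in
/-- characteristic polynomial of the adjacency matrix over the integers -/
noncomputable def chi (G : SimpleGraph (Fin n)) : Polynomial ℤ := (G.adjMatrix ℤ).charpoly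

/-- product of the kernel over the edges -/
noncomputable def W {X : Type} (K : X → X → ℂ) (g : Pos M → X) : ℂ :=
  ∏ j : Fin M, K (g (j, false)) (g (j, true))

/-- the quadratic form of the kernel -/
noncomputable def Qf {X : Type} [Fintype X] (K : X → X → ℂ) (z : X → ℂ) : ℂ :=
  ∑ x, ∑ y, z x * z y * K x y

/-- probability of a word under its own empirical law -/
noncomputable def qq {X : Type} [Fintype X] [DecidableEq X] (c : Fin n → X) : ℝ :=
  ∏ x, ((cnt c x : ℝ) / n) ^ cnt c x

/-- the hyperbolic Fourier kernel -/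
noncomputable def Kp (p : ℕ) [Fact p.Prime] (x y : ZMod p × ZMod p) : ℂ :=
  ZMod.stdAddChar (x.2 * y.1 + y.2 * x.1)

/-- pair of two vectors -/
def pr {p : ℕ} (v w : Fin n → ZMod p) : Fin n → ZMod p × ZMod p := fun u => (v u, w u)

/-- the character `ψ (w · (A - e) v)` -/
noncomputable def Phi {p : ℕ} [Fact p.Prime] (e : ZMod p) (τ : Pos M → Fin n)
    (v w : Fin n → ZMod p) : ℂ :=
  ZMod.stdAddChar (-(e * ∑ u, w u * v u)) * W (Kp p) (pr v w ∘ τ)

/-- its sum over all configurations -/
noncomputable def Phb {p : ℕ} [Fact p.Prime] (e : ZMod p) (t : Pos M → Fin n)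
    (v w : Fin n → ZMod p) : ℂ :=
  ∑ σ : Equiv.Perm (Pos M), Phi e (t ∘ σ) v w

open Classical in
/-- nearly constant vectors -/
noncomputable def NC (n p : ℕ) [Fact p.Prime] (δ : ℝ) : Finset (Fin n → ZMod p) :=
  univ.filter fun v => ∃ c, (1 - δ) * n < cnt v c

@[simp] theorem mem_NC (p : ℕ) [Fact p.Prime] (δ : ℝ) (v : Fin n → ZMod p) :
    v ∈ NC n p δ ↔ ∃ c, (1 - δ) * n < cnt v c := by simp [NC]

/-- the first moment term for dense sets of `u` vertices -/
def trm (d p n M u : ℕ) : ℕ :=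
  n.choose u * p ^ u *
    (M.choose ((6 * u + 4) / 5) * (d * u) ^ (2 * ((6 * u + 4) / 5)) *
      (2 * M - 2 * ((6 * u + 4) / 5)).factorial)

end Vale.Agent.P156
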