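import Vale.Agent.P156.Stm

namespace Vale.Agent.P156

open Finset Polynomial

theorem Blk_norm {p : ℕ} [Fact p.Prime] {M n : ℕ} (e : ZMod p) (t : Pos M → Fin n)
    (v w : Fin n → ZMod p) :
    ‖Phb e t v w‖ = ‖∑ σ : Equiv.Perm (Pos M), W (Kp p) ((pr v w ∘ t) ∘ σ)‖ := by
  unfold Phb Phi
  rw [← Finset.mul_sum, norm_mul, AddChar.norm_apply, one_mul]
  rfl

theorem Blk_c1 {p : ℕ} [Fact p.Prime] {n : ℕ} (v w : Fin n → ZMod p) (a : ZMod p) :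
    ∑ s, cnt (pr v w) (a, s) = cnt v a := by
  simp only [cnt, card_filter]
  rw [sum_comm]
  refine sum_congr rfl fun u _ => ?_
  by_cases h : v u = a <;> simp [pr, h]

theorem Blk_c2 {p : ℕ} [Fact p.Prime] {n : ℕ} (v w : Fin n → ZMod p) (s : ZMod p) :
    ∑ a, cnt (pr v w) (a, s) = cnt w s := by
  simp only [cnt, card_filter]
  rw [sum_comm]
  refine sum_congr rfl fun u _ => ?_
  by_cases h : w u = s <;> simp [pr, h]

theorem Blk_qq {X : Type} [Fintype X] [DecidableEq X] {n : ℕ} (c : Fin n → X) : 0 ≤ qq c :=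
  prod_nonneg fun _ _ => by positivity

theorem Blk_sum {p : ℕ} [Fact p.Prime] {n : ℕ} (h3 : Typ) (S : Finset (Fin n → ZMod p)) :
    ∑ v ∈ S, ∑ w ∈ S, qq (pr v w) ≤ ((n : ℝ) + 1) ^ (p ^ 2) := by
  have h := h3 n (ZMod p × ZMod p)
  rw [Fintype.card_prod, ZMod.card, ← pow_two] at h
  refine le_trans ?_ h
  calc ∑ v ∈ S, ∑ w ∈ S, qq (pr v w) ≤ ∑ v, ∑ w : Fin n → ZMod p, qq (pr v w) := by
        refine (sum_le_sum fun v _ => sum_le_univ_sum_of_nonneg fun w => Blk_qq _).trans ?_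
        exact sum_le_univ_sum_of_nonneg fun v => sum_nonneg fun w _ => Blk_qq _
    _ = ∑ q : (Fin n → ZMod p) × (Fin n → ZMod p), qq (pr q.1 q.2) :=
        (Fintype.sum_prod_type' fun v w : Fin n → ZMod p => qq (pr v w)).symm
    _ = ∑ c : Fin n → ZMod p × ZMod p, qq c :=
        Fintype.sum_equiv (Equiv.arrowProdEquivProdArrow _ _ _).symm _ _ fun _ => rfl
    _ ≤ _ := le_rfl

theorem blk (h1 : Blk1) (h2 : Gap) (h3 : Typ) (h4 : Asy) : Blk := by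
  intro p _ hp d hd δ ε hδ hε
  obtain ⟨ρ, hρ0, hρ1, hρ⟩ := h2 p hp δ hδ
  obtain ⟨n0, hn0⟩ := h4 (p ^ 2) d ρ ε hρ0 hρ1 hε
  refine ⟨max 1 n0, fun n hn M t e hM ht => ?_⟩
  have hn1 : 0 < n := le_trans (le_max_left _ _) hn
  have hn' : (0 : ℝ) < n := by exact_mod_cast hn1
  have hm : n ≤ 2 * (M - n) := by
    have := Nat.mul_le_mul_left n hd
    omega
  have ha := hn0 n (le_trans (le_max_right _ _) hn) (M - n) hm
  have hout : ∀ v ∈ (NC n p δ)ᶜ, ∀ a, (cnt v a : ℝ) / n ≤ 1 - δ := fun v hv a => by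
    rw [mem_compl, mem_NC, not_exists] at hv
    rw [div_le_iff₀ hn']
    exact not_lt.1 (hv a)
  set C : ℝ := (3 * (((n * d : ℕ) : ℝ) + 1)) ^ (p ^ 2) * ((2 * M).factorial : ℝ) *
    (ρ ^ (M - n) * (p : ℝ) ^ n) with hC
  have hC0 : 0 ≤ C := by positivity
  have key : ∀ v ∈ (NC n p δ)ᶜ, ∀ w ∈ (NC n p δ)ᶜ, ‖Phb e t v w‖ ≤ C * qq (pr v w) :=
    fun v hv w hw => by
      rw [Blk_norm]
      refine (h1 p d n M t (pr v w) ρ (by omega) hn1 hM ht hρ0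
        (hρ (fun x => (cnt (pr v w) x : ℝ) / n) ?_ (fun a => ?_) fun s => ?_)).trans
        (le_of_eq (by rw [hC]; ring))
      · rw [← sum_div, ← Nat.cast_sum, sum_cnt, Fintype.card_fin, div_self hn'.ne']
      · rw [← sum_div, ← Nat.cast_sum, Blk_c1]
        exact hout v hv a
      · rw [← sum_div, ← Nat.cast_sum, Blk_c2]
        exact hout w hw s
  calc _ ≤ ∑ v ∈ (NC n p δ)ᶜ, ∑ w ∈ (NC n p δ)ᶜ, C * qq (pr v w) :=
        sum_le_sum fun v hv => sum_le_sum fun w hw => key v hv w hw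
    _ = C * ∑ v ∈ (NC n p δ)ᶜ, ∑ w ∈ (NC n p δ)ᶜ, qq (pr v w) := by
        simp only [mul_sum]
    _ ≤ C * ((n : ℝ) + 1) ^ (p ^ 2) := mul_le_mul_of_nonneg_left (Blk_sum h3 _) hC0
    _ = ((3 * (((n * d : ℕ) : ℝ) + 1)) ^ (p ^ 2) * ((n : ℝ) + 1) ^ (p ^ 2) * ρ ^ (M - n)) *
          ((p : ℝ) ^ n * ((2 * M).factorial : ℝ)) := by rw [hC]; ring
    _ ≤ ε * ((p : ℝ) ^ n * ((2 * M).factorial : ℝ)) :=
        mul_le_mul_of_nonneg_right ha (by positivity)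
    _ = _ := by ring

end Vale.Agent.P156
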