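import Vale.Agent.P156.Stm

namespace Vale.Agent.P156

open Finset Polynomial

theorem Blk1_pos {n : ℕ} {X : Type} [Fintype X] [DecidableEq X] (hn : 0 < n) (c : Fin n → X) :
    0 < qq c := by
  refine prod_pos fun x _ => ?_
  rcases Nat.eq_zero_or_pos (cnt c x) with h | h
  · rw [h, pow_zero]
    exact one_pos
  · positivity

theorem blk1 (h1 : Haf) (h2 : Opn) (h3 : CntC) (h4 : Itp) : Blk1 := by
  intro p _ d n M t c ρ hd hn hM ht hρ hz
  have hn0 : (0 : ℝ) < n := by exact_mod_cast hn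
  have hd0 : (0 : ℝ) < d := by exact_mod_cast (by omega : 0 < d)
  have hq := Blk1_pos hn c
  have e1 := (h3 d M n t ht).1 _ c
  have e2 : ∀ x, (cnt (c ∘ t) x : ℝ) / ((2 * M : ℕ) : ℝ) = (cnt c x : ℝ) / n := fun x => by
    rw [e1, hM]
    push_cast
    field_simp
  have e3 : ∏ x, ((cnt c x : ℝ) / n) ^ cnt (c ∘ t) x = qq c ^ d := by
    rw [qq, ← prod_pow]
    exact prod_congr rfl fun x _ => by rw [e1, mul_comm, pow_mul]
  have e4 : Fintype.card (ZMod p × ZMod p) = p ^ 2 := by rw [Fintype.card_prod, ZMod.card, sq]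
  have e5 : (∏ x, √((cnt c x : ℝ) / n) ^ cnt (c ∘ t) x) ^ 2 = qq c ^ d := by
    rw [← e3, ← prod_pow]
    exact prod_congr rfl fun x _ => by
      rw [← pow_mul, mul_comm, pow_mul, Real.sq_sqrt (by positivity)]
  have e6 : ∑ x, (cnt c x : ℝ) / n = 1 := by
    rw [← sum_div, ← Nat.cast_sum, sum_cnt, Fintype.card_fin, div_self hn0.ne']
  have a1 := h1 M _ (Kp p) (c ∘ t) (fun x => (cnt c x : ℝ) / n) ρ (fun x => by positivity) hz
  have a2 := h1 M _ (Kp p) (c ∘ t) (fun x => √((cnt c x : ℝ) / n)) p (fun x => Real.sqrt_nonneg _)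
    fun z hz => (h2 p z).trans (le_of_eq (by
      rw [sum_congr rfl fun x _ => by rw [hz x, Real.sq_sqrt (by positivity)], e6, mul_one]))
  simp only [e2, e3, e4] at a1 a2
  have hP : 0 < (3 * (((2 * M : ℕ) : ℝ) + 1)) ^ (p ^ 2) * ((2 * M).factorial : ℝ) := by positivity
  rw [← hM]
  have hs0 : 0 ≤ ∏ x, √((cnt c x : ℝ) / n) ^ cnt (c ∘ t) x := prod_nonneg fun x _ => by positivity
  have ha := norm_nonneg (∑ σ : Equiv.Perm (Pos M), W (Kp p) ((c ∘ t) ∘ σ))
  generalize ‖∑ σ : Equiv.Perm (Pos M), W (Kp p) ((c ∘ t) ∘ σ)‖ = A at *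
  generalize (3 * (((2 * M : ℕ) : ℝ) + 1)) ^ (p ^ 2) * ((2 * M).factorial : ℝ) = P at *
  generalize ∏ x, √((cnt c x : ℝ) / n) ^ cnt (c ∘ t) x = s at *
  have hqd := pow_pos hq d
  have hs : 0 < s := hs0.lt_of_ne fun h => by
    rw [← e5, ← h] at hqd
    simp at hqd
  rw [← div_le_iff₀' hP]
  refine h4 _ _ ρ d n M (by positivity) (by positivity) hρ hd hM ?_ ?_
  · rw [div_le_iff₀' hP]
    refine le_of_mul_le_mul_left (a1.trans (le_of_eq ?_)) hqd
    ring
  · have b1 : A / P ≤ s * (p : ℝ) ^ M := by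
      rw [div_le_iff₀' hP]
      refine le_of_mul_le_mul_left (a2.trans (le_of_eq ?_)) hs
      rw [← e5]
      ring
    refine (pow_le_pow_left₀ (by positivity) b1 2).trans (le_of_eq ?_)
    rw [mul_pow, mul_pow, e5, ← pow_mul, ← pow_mul, ← hM, mul_comm M]

end Vale.Agent.P156
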