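import Vale.Agent.P156.Stm

namespace Vale.Agent.P156

open Finset Polynomial

theorem Bwd_ed {M n : ℕ} (r : Pos M → Fin n) (i : Fin M) (u b : Fin n) (h : ed r i = s(u, b)) :
    ∃ x : Pos M, x.1 = i ∧ r x = b ∧ r (fl x) = u := by
  rcases Sym2.eq_iff.1 h with h | h
  · exact ⟨(i, true), rfl, h.2, h.1⟩
  · exact ⟨(i, false), rfl, h.1, h.2⟩

theorem Bwd_mem {M n : ℕ} (τ : Pos M → Fin n) (j : Fin M) (hj : τ (j, false) ≠ τ (j, true))
    (y : Pos M) (hy : y ∈ bwdS τ j) : τ y ∈ insert (τ (j, true)) (Nb τ (τ (j, true))) := by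
  obtain ⟨h1, h2⟩ := (mem_bwdS τ j y).1 hy
  have e0 : sw τ j y (j, false) = τ y := by simp [sw]
  have ey : sw τ j y y = τ (j, false) := by simp [sw]
  have eo : ∀ x : Pos M, x ≠ (j, false) → x ≠ y → sw τ j y x = τ x := fun x a b => by
    simp [sw, Equiv.swap_apply_of_ne_of_ne a b]
  have e1 : sw τ j y (j, true) = τ (j, true) :=
    eo _ (by simp) fun h => h1 (by rw [← h])
  rcases h2 with h | ⟨i, hi, h⟩
  · rw [e0, e1] at h
    exact mem_insert.2 (Or.inl h)
  · have h' : ed (sw τ j y) i = s(τ y, τ (j, true)) := by rw [h, ed, e0, e1]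
    obtain ⟨x, hx, hb, hu⟩ := Bwd_ed _ _ _ _ h'
    have n1 : x ≠ (j, false) := fun e => hi (by rw [← hx, e])
    have n2 : fl x ≠ (j, false) := fun e => hi (by rw [← hx, ← fl_fst x, e])
    refine mem_insert.2 (Or.inr ((mem_Nb _ _ _).2 ?_))
    by_cases c1 : x = y
    · rw [c1, ey] at hb
      exact absurd hb hj
    by_cases c2 : fl x = y
    · rw [c2, ey] at hu
      exact ⟨(j, true), rfl, hu⟩
    · rw [eo _ n1 c1] at hb
      rw [eo _ n2 c2] at hu
      exact ⟨x, hb, hu⟩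

theorem bwd (h1 : CntC) : Bwd := by
  intro d n M τ j hF hj
  have a1 : (bwdS τ j).card ≤
      (univ.filter fun x => τ x ∈ insert (τ (j, true)) (Nb τ (τ (j, true)))).card :=
    card_le_card fun y hy => mem_filter.2 ⟨mem_univ _, Bwd_mem τ j hj y hy⟩
  rw [(h1 d M n τ hF).2] at a1
  refine a1.trans (Nat.mul_le_mul_left d ((card_insert_le _ _).trans ?_))
  exact Nat.succ_le_succ (card_Nb hF _)

end Vale.Agent.P156
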