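import Vale.Agent.P156.Stm

namespace Vale.Agent.P156

open Finset Polynomial

theorem CntC_two {d M n : ℕ} {t : Pos M → Fin n} (h : Fib d t) (U : Finset (Fin n)) :
    (univ.filter fun x => t x ∈ U).card = d * U.card := by
  rw [card_eq_sum_card_fiberwise (f := t) (s := univ.filter fun x => t x ∈ U) (t := U)
    fun x hx => (mem_filter.1 hx).2, mul_comm, ← smul_eq_mul, ← sum_const]
  refine sum_congr rfl fun u hu => ?_
  rw [← h u, cnt, filter_filter]
  exact congrArg card (filter_congr fun x _ => ⟨fun k => k.2, fun k => ⟨k ▸ hu, k⟩⟩)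

theorem cntC : CntC := by
  intro d M n t h
  refine ⟨fun X _ c x => ?_, CntC_two h⟩
  rw [cnt, cnt, ← CntC_two h]
  exact congrArg card (filter_congr fun y _ => by simp)

end Vale.Agent.P156
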