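import Vale.Agent.P156.Stm

/-! Coefficient extraction by roots of unity. -/

namespace Vale.Agent.P156

open Finset Polynomial

lemma Cof_geom {L : ℕ} {ζ : ℂ} (h : IsPrimitiveRoot ζ L) {i j : ℕ} (hi : i < L) (hj : j < L) :
    ∑ k : Fin L, (ζ ^ i * (ζ ^ j)⁻¹) ^ (k : ℕ) = if i = j then (L : ℂ) else 0 := by
  have h0 : ζ ^ j ≠ 0 := pow_ne_zero _ (h.ne_zero (by omega))
  split_ifs with c
  · subst c
    simp [mul_inv_cancel₀ h0]
  · have hq : ζ ^ i * (ζ ^ j)⁻¹ ≠ 1 := fun e => c (h.pow_inj hi hj ((mul_inv_eq_one₀ h0).1 e))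
    rw [Fin.sum_univ_eq_sum_range (fun k => (ζ ^ i * (ζ ^ j)⁻¹) ^ k) L, geom_sum_eq hq, mul_pow,
      inv_pow, pow_right_comm ζ i, pow_right_comm ζ j, h.pow_eq_one]
    simp

theorem cof : Cof := by
  intro Y X _ _ _ a c m r B hr hB
  obtain ⟨L, hL, hc, hm⟩ : ∃ L : ℕ, 0 < L ∧ (∀ y x, c y x < L) ∧ ∀ x, m x < L := by
    refine ⟨∑ y, ∑ x, c y x + ∑ x, m x + 1, by omega, fun y x => ?_, fun x => ?_⟩
    · have h1 := single_le_sum (f := fun x => c y x) (fun _ _ => Nat.zero_le _) (mem_univ x)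
      have h2 := single_le_sum (f := fun y => ∑ x, c y x) (fun _ _ => Nat.zero_le _) (mem_univ y)
      omega
    · have h1 := single_le_sum (f := m) (fun _ _ => Nat.zero_le _) (mem_univ x)
      omega
  obtain ⟨ζ, hζ⟩ : ∃ ζ : ℂ, IsPrimitiveRoot ζ L := ⟨_, Complex.isPrimitiveRoot_exp L hL.ne'⟩
  have n1 : ‖ζ‖ = 1 := hζ.norm'_eq_one hL.ne'
  have hT : ∀ θ : X → Fin L, ‖(∏ x, ((ζ ^ m x)⁻¹) ^ (θ x : ℕ)) *
      ∑ y, (∏ x, ((r x : ℂ) * ζ ^ (θ x : ℕ)) ^ c y x) * a y‖ ≤ B := fun θ => by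
    rw [norm_mul, norm_prod, prod_eq_one fun x _ => by simp [n1], one_mul]
    exact hB _ fun x => by simp [n1, abs_of_nonneg (hr x)]
  have hS : ∑ θ : X → Fin L, (∏ x, ((ζ ^ m x)⁻¹) ^ (θ x : ℕ)) *
      ∑ y, (∏ x, ((r x : ℂ) * ζ ^ (θ x : ℕ)) ^ c y x) * a y =
      (L : ℂ) ^ Fintype.card X * ((∏ x, r x ^ m x : ℝ) *
        ∑ y ∈ univ.filter (fun y => ∀ x, c y x = m x), a y) := by
    simp only [mul_sum]
    rw [sum_comm, sum_filter]
    refine sum_congr rfl fun y _ => ?_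
    have e : ∀ θ : X → Fin L, (∏ x, ((ζ ^ m x)⁻¹) ^ (θ x : ℕ)) *
        ((∏ x, ((r x : ℂ) * ζ ^ (θ x : ℕ)) ^ c y x) * a y) =
        ((∏ x, (r x : ℂ) ^ c y x) * a y) * ∏ x, (ζ ^ c y x * (ζ ^ m x)⁻¹) ^ (θ x : ℕ) := by
      intro θ
      rw [← mul_assoc, mul_right_comm _ (a y), ← prod_mul_distrib, ← prod_mul_distrib]
      congr 1
      exact prod_congr rfl fun x _ => by ring
    rw [sum_congr rfl fun θ _ => e θ, ← mul_sum, ← Fintype.piFinset_univ,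
      ← prod_univ_sum (fun _ => univ) fun x (k : Fin L) => (ζ ^ c y x * (ζ ^ m x)⁻¹) ^ (k : ℕ),
      prod_congr rfl fun x _ => Cof_geom hζ (hc y x) (hm x)]
    split_ifs with h
    · simp only [h, if_true, prod_const, card_univ]
      push_cast
      ring
    · obtain ⟨x, hx⟩ := not_forall.1 h
      exact mul_eq_zero_of_right _ (prod_eq_zero (mem_univ x) (if_neg hx))
  have h1 := (norm_sum_le _ _).trans (sum_le_sum fun θ (_ : θ ∈ univ) => hT θ)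
  rw [hS, sum_const, card_univ, Fintype.card_fun, Fintype.card_fin, nsmul_eq_mul, norm_mul,
    norm_mul, norm_pow, Complex.norm_natCast, Complex.norm_real, Real.norm_eq_abs,
    abs_of_nonneg (prod_nonneg fun x _ => pow_nonneg (hr x) _), Nat.cast_pow] at h1
  exact le_of_mul_le_mul_left h1 (by positivity)

end Vale.Agent.P156
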