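import Vale.Agent.P156.Stm

namespace Vale.Agent.P156

open Finset Polynomial

theorem Dbl_comp {M n : ℕ} (t : Pos M → Fin n) (σ : Equiv.Perm (Pos M)) (j : Fin M)
    (y : Pos M) : t ∘ (σ * Equiv.swap (j, false) y : Equiv.Perm (Pos M)) = sw (t ∘ σ) j y := by
  funext x
  simp [sw]

theorem Dbl_sw {M n : ℕ} (τ : Pos M → Fin n) (j : Fin M) (y : Pos M) :
    sw (sw τ j y) j y = τ := by
  funext x
  simp [sw]

theorem dbl (h1 : Fwd) (h2 : Bwd) : Dbl := by
  intro d n M k t ht hk hM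
  have hM0 : 0 < M := by omega
  let T : Finset (Σ _ : Equiv.Perm (Pos M), Σ _ : Fin M, Pos M) :=
    (sP t (fun τ => Df τ = k)).sigma fun σ => (dS (t ∘ σ)).sigma fun j => goodS (t ∘ σ) j
  let T' : Finset (Σ _ : Equiv.Perm (Pos M), Σ _ : Fin M, Pos M) :=
    (sP t (fun τ => Df τ < k)).sigma fun σ =>
      (univ.filter fun j : Fin M => t (σ (j, false)) ≠ t (σ (j, true))).sigma
        fun j => bwdS (t ∘ σ) j
  have hA : nP t (fun τ => Df τ = k) * M ≤ T.card := by
    rw [card_sigma, nP, ← smul_eq_mul]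
    apply card_nsmul_le_sum
    intro σ hσ
    rw [mem_sP] at hσ
    have hne : (dS (t ∘ σ)).Nonempty := by
      rw [← card_pos]
      have : (dS (t ∘ σ)).card = k := hσ
      omega
    obtain ⟨j, hj⟩ := hne
    have h3 := h1 d n M (t ∘ σ) j (ht.perm σ) ((mem_dS _ _).1 hj)
    rw [hσ] at h3
    have h4 : (goodS (t ∘ σ) j).card ≤ ∑ i ∈ dS (t ∘ σ), (goodS (t ∘ σ) i).card :=
      single_le_sum (f := fun i => (goodS (t ∘ σ) i).card) (fun _ _ => Nat.zero_le _) hj
    rw [card_sigma]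
    omega
  have hB : T'.card ≤ nP t (fun τ => Df τ < k) * (M * (d * (d + 1))) := by
    rw [card_sigma, nP, ← smul_eq_mul]
    apply sum_le_card_nsmul
    intro σ _
    rw [card_sigma]
    have h3 := sum_le_card_nsmul
      (univ.filter fun j : Fin M => t (σ (j, false)) ≠ t (σ (j, true)))
      (fun j => (bwdS (t ∘ σ) j).card) (d * (d + 1)) (fun j hj =>
        h2 d n M (t ∘ σ) j (ht.perm σ) (mem_filter.1 hj).2)
    rw [smul_eq_mul] at h3
    refine h3.trans (Nat.mul_le_mul_right _ ?_)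
    exact (card_le_univ _).trans (le_of_eq (Fintype.card_fin M))
  have hC : T.card ≤ T'.card := by
    apply card_le_card_of_injOn
      (fun q => ⟨q.1 * Equiv.swap (q.2.1, false) q.2.2, q.2.1, q.2.2⟩)
    · rintro ⟨σ, j, y⟩ hq
      have hq1 := mem_sigma.1 (mem_coe.1 hq)
      have hq2 := mem_sigma.1 hq1.2
      have a1 : Df (t ∘ σ) = k := (mem_sP _ _ _).1 hq1.1
      have a2 : Dfc (t ∘ σ) j := (mem_dS _ _).1 hq2.1
      have a3 := (mem_goodS (t ∘ σ) j y).1 hq2.2
      refine mem_coe.2 (mem_sigma.2 ⟨?_, mem_sigma.2 ⟨?_, ?_⟩⟩)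
      · rw [mem_sP]
        show Df (t ∘ (σ * Equiv.swap (j, false) y : Equiv.Perm (Pos M))) < k
        rw [Dbl_comp, ← a1]
        exact a3.2.1
      · refine mem_filter.2 ⟨mem_univ _, ?_⟩
        exact a3.2.2
      · show y ∈ bwdS (t ∘ (σ * Equiv.swap (j, false) y : Equiv.Perm (Pos M))) j
        rw [Dbl_comp, mem_bwdS, Dbl_sw]
        exact ⟨a3.1, a2⟩
    · rintro ⟨σ, j, y⟩ _ ⟨σ', j', y'⟩ _ h
      have b1 : σ * Equiv.swap (j, false) y = σ' * Equiv.swap (j', false) y' :=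
        congrArg (fun q : (Σ _ : Equiv.Perm (Pos M), Σ _ : Fin M, Pos M) => q.1) h
      have b2 : j = j' :=
        congrArg (fun q : (Σ _ : Equiv.Perm (Pos M), Σ _ : Fin M, Pos M) => q.2.1) h
      have b3 : y = y' :=
        congrArg (fun q : (Σ _ : Equiv.Perm (Pos M), Σ _ : Fin M, Pos M) => q.2.2) h
      subst b2
      subst b3
      rw [mul_right_cancel b1]
  have hD : nP t (fun τ => Df τ = k) * M ≤ d * (d + 1) * nP t (fun τ => Df τ < k) * M := by
    calc nP t (fun τ => Df τ = k) * M ≤ nP t (fun τ => Df τ < k) * (M * (d * (d + 1))) :=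
          hA.trans (hC.trans hB)
      _ = d * (d + 1) * nP t (fun τ => Df τ < k) * M := by ring
  exact Nat.le_of_mul_le_mul_right hD hM0

end Vale.Agent.P156
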