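import Mathlib

namespace Vale.Agent.P156

/-- The simple labelled `d`-regular graphs on `n` vertices. -/
def Reg (n d : ℕ) : Set (SimpleGraph (Fin n)) := {G | ∀ v, (G.neighborSet v).ncard = d}

/-- Probability of a property under the uniform law on `Reg n d`. -/
noncomputable def prob (n d : ℕ) (P : SimpleGraph (Fin n) → Prop) : ℝ :=
  (({G ∈ Reg n d | P G} : Set (SimpleGraph (Fin n))).ncard : ℝ) / ((Reg n d).ncard : ℝ)

open Classical in
/-- `E` is an eigenvalue of the real 0/1 adjacency matrix of `G`. -/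
def IsEig {n : ℕ} (G : SimpleGraph (Fin n)) (E : ℝ) : Prop :=
  E ∈ spectrum ℝ (G.adjMatrix ℝ)

/-- `E` is algebraic of degree at most `D`. -/
def DegLe (D : ℕ) (E : ℝ) : Prop :=
  ∃ f : Polynomial ℚ, f ≠ 0 ∧ f.natDegree ≤ D ∧ Polynomial.aeval E f = 0

end Vale.Agent.P156
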