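import Vale.Agent.P156.Stm

namespace Vale.Agent.P156

open Finset Polynomial

theorem Den_inn {M n : ℕ} (τ : Pos M → Fin n) (U : Finset (Fin n)) :
    (univ.filter fun x : Pos M => τ x ∈ U ∧ τ (fl x) ∈ U).card ≤ 2 * inn τ U := by
  have h : (univ.filter fun x : Pos M => τ x ∈ U ∧ τ (fl x) ∈ U) ⊆
      (univ.filter fun j : Fin M => τ (j, false) ∈ U ∧ τ (j, true) ∈ U) ×ˢ (univ : Finset Bool) := by
    rintro ⟨j, b⟩ hx
    simp only [mem_filter, mem_univ, true_and, mem_product, and_true] at hx ⊢
    cases b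
    · exact hx
    · exact hx.symm
  have := card_le_card h
  rw [card_product, card_univ, Fintype.card_bool, mul_comm] at this
  exact this

theorem Den_two {p : ℕ} [Fact p.Prime] {M n : ℕ} {τ : Pos M → Fin n} {e : ZMod p}
    {v : Fin n → ZMod p} (h : Sol e τ v) {u : Fin n} (hu : v u = 0) {x : Pos M} (hx : τ x = u)
    (hv : v (τ (fl x)) ≠ 0) :
    2 ≤ ((univ.filter fun y : Pos M => v (τ y) = 0 ∧ v (τ (fl y)) ≠ 0).filter
      fun y => τ y = u).card := by
  by_contra hlt
  have h1 := card_le_one.1 (Nat.lt_succ_iff.1 (not_le.1 hlt))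
  have h2 := h u
  rw [hu, mul_zero, sum_eq_single x] at h2
  · exact hv h2
  · intro y hy hne
    by_contra hy'
    have hy2 : τ y = u := (mem_filter.1 hy).2
    refine hne (h1 y ?_ x ?_)
    · simp only [mem_filter, mem_univ, true_and]
      exact ⟨⟨by rw [hy2, hu], hy'⟩, hy2⟩
    · simp only [mem_filter, mem_univ, true_and]
      exact ⟨⟨by rw [hx, hu], hv⟩, hx⟩
  · intro hn
    exact (hn (mem_filter.2 ⟨mem_univ x, hx⟩)).elim

theorem den (h1 : CntC) : Den := by
  intro p _ d n M τ e v hd hF hS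
  set S : Finset (Fin n) := univ.filter fun u => v u ≠ 0 with hSd
  set A : Finset (Pos M) := univ.filter fun x => τ x ∈ S with hA
  set B : Finset (Pos M) := univ.filter fun y => v (τ y) = 0 ∧ v (τ (fl y)) ≠ 0 with hB
  set T : Finset (Fin n) := B.image τ with hT
  have cS : S.card = n - cnt v 0 := by
    have := card_filter_add_card_filter_not (s := (univ : Finset (Fin n))) fun u => v u = 0
    rw [card_univ, Fintype.card_fin] at this
    unfold cnt
    change _ + S.card = n at this
    omega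
  have cA : A.card = d * S.card := (h1 d M n τ hF).2 S
  have cB : B.card ≤ A.card := by
    refine card_le_card_of_injOn fl (fun y hy => ?_) fl_inj.injOn
    have := (mem_filter.1 (mem_coe.1 hy)).2.2
    simp only [hA, hSd, coe_filter, mem_filter, mem_univ, true_and, Set.mem_ofPred_eq]
    exact this
  have cT : 2 * T.card ≤ B.card := by
    rw [card_eq_sum_card_fiberwise (f := τ) (s := B) (t := T)
      fun y hy => mem_coe.2 (mem_image_of_mem τ (mem_coe.1 hy)), mul_comm, ← smul_eq_mul,
      ← sum_const]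
    refine sum_le_sum fun u hu => ?_
    obtain ⟨x, hx, hxu⟩ := mem_image.1 hu
    obtain ⟨a1, a2⟩ := (mem_filter.1 hx).2
    exact Den_two hS (hxu ▸ a1) hxu a2
  have mS : ∀ u, u ∈ S ↔ v u ≠ 0 := fun u => by simp [hSd]
  have dj : Disjoint A B := by
    rw [disjoint_left]
    intro x hx hx'
    exact (mS _).1 (mem_filter.1 hx).2 (mem_filter.1 hx').2.1
  have sub : A ∪ B ⊆ univ.filter fun x : Pos M => τ x ∈ S ∪ T ∧ τ (fl x) ∈ S ∪ T := by
    intro x hx
    refine mem_filter.2 ⟨mem_univ _, ?_⟩
    rcases mem_union.1 hx with hx | hx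
    · have a1 := (mem_filter.1 hx).2
      refine ⟨mem_union_left _ a1, ?_⟩
      by_cases a2 : v (τ (fl x)) = 0
      · refine mem_union_right _ (mem_image_of_mem τ (mem_filter.2 ⟨mem_univ _, a2, ?_⟩))
        rw [fl_fl]
        exact (mS _).1 a1
      · exact mem_union_left _ ((mS _).2 a2)
    · exact ⟨mem_union_right _ (mem_image_of_mem τ hx),
        mem_union_left _ ((mS _).2 (mem_filter.1 hx).2.2)⟩
  have c1 := (card_le_card sub).trans (Den_inn τ (S ∪ T))
  rw [card_union_of_disjoint dj] at c1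
  have c2 := card_union_le S T
  have c3 : 3 * S.card ≤ d * S.card := Nat.mul_le_mul_right _ hd
  refine ⟨S ∪ T, fun u hu => mem_union_left _ ((mS u).2 hu), ?_, ?_⟩
  · rw [← cS, add_mul]
    omega
  · omega

end Vale.Agent.P156
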