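import Vale.Agent.P156.Stm

namespace Vale.Agent.P156

open Finset Polynomial

theorem det_pf (h1 : CntC) : Det := by
  intro p _ d n M τ e c v hF hS he hc
  have k : ∀ u, v u = c → ∃ x, τ x = u ∧ v (τ (fl x)) ≠ c := fun u hu => by
    by_contra q
    have q' : ∀ x ∈ univ.filter (fun x => τ x = u), v (τ (fl x)) = c := fun x hx =>
      by_contra fun z => q ⟨x, (mem_filter.1 hx).2, z⟩
    have e1 := hS u
    have e2 : (univ.filter fun x => τ x = u).card = d := hF u
    rw [sum_congr rfl q', sum_const, e2, nsmul_eq_mul, hu] at e1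
    exact he (mul_right_cancel₀ hc e1).symm
  have hU : (univ.filter fun u => ¬v u = c).card = n - cnt v c := by
    have := card_filter_add_card_filter_not (s := (univ : Finset (Fin n))) fun u => v u = c
    rw [card_univ, Fintype.card_fin] at this
    unfold cnt
    omega
  rw [← hU, ← (h1 d M n τ hF).2]
  refine le_trans (card_le_card fun u hu => ?_) (card_image_le (f := fun y => τ (fl y)))
  obtain ⟨x, x1, x2⟩ := k u (mem_filter.1 hu).2
  exact mem_image.2 ⟨fl x, mem_filter.2 ⟨mem_univ _, mem_filter.2 ⟨mem_univ _, x2⟩⟩, by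
    rw [fl_fl, x1]⟩

end Vale.Agent.P156
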