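import Vale.Agent.P156.Stm

namespace Vale.Agent.P156

open Finset Polynomial

theorem DfE_swap {M n : ℕ} (t : Pos M → Fin n) :
    ∑ σ : Equiv.Perm (Pos M), Df (t ∘ σ) = ∑ j : Fin M, nP t fun τ => Dfc τ j := by
  simp only [Df, dS, nP, sP, card_filter]
  exact sum_comm

theorem DfE_one {M n : ℕ} (t : Pos M → Fin n) (j : Fin M) :
    (nP t fun τ => Dfc τ j) ≤ (nP t fun τ => τ (j, false) = τ (j, true)) +
      ∑ i ∈ univ.erase j, nP t fun τ => ed τ i = ed τ j := by
  refine le_trans (card_le_card (t := (sP t fun τ => τ (j, false) = τ (j, true)) ∪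
    (univ.erase j).biUnion fun i => sP t fun τ => ed τ i = ed τ j) fun σ hσ => ?_)
    ((card_union_le _ _).trans (Nat.add_le_add_left card_biUnion_le _))
  rw [mem_sP] at hσ
  rcases hσ with h | ⟨i, h1, h2⟩
  · exact mem_union_left _ ((mem_sP _ _ _).2 h)
  · exact mem_union_right _
      (mem_biUnion.2 ⟨i, mem_erase.2 ⟨h1, mem_univ _⟩, (mem_sP _ _ _).2 h2⟩)

theorem DfE_num {d n M : ℕ} (h : 2 * M = n * d) (hM : 3 ≤ M) :
    M * (n * d ^ 2 * (2 * M - 2).factorial + M * (2 * n ^ 2 * d ^ 4 * (2 * M - 4).factorial)) ≤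
      (d + 4 * d ^ 2) * (2 * M).factorial := by
  obtain ⟨j, hj⟩ : ∃ j, 2 * M = j + 4 := ⟨2 * M - 4, by omega⟩
  have e1 : n * d ^ 2 = 2 * M * d := by rw [h]; ring
  have e2 : 2 * n ^ 2 * d ^ 4 = 2 * (2 * M) ^ 2 * d ^ 2 := by rw [h]; ring
  have f2 : (2 * M - 2).factorial = (j + 2).factorial := by congr 1; omega
  have f4 : (2 * M - 4).factorial = j.factorial := by congr 1; omega
  have g1 : (2 * M).factorial = 2 * M * ((j + 3) * (j + 2).factorial) := by
    conv_lhs => rw [hj, Nat.factorial_succ, Nat.factorial_succ (j + 2), ← hj]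
  have g2 : (j + 2).factorial = (j + 2) * ((j + 1) * j.factorial) := by
    rw [Nat.factorial_succ, Nat.factorial_succ]
  have a1 : M ≤ j + 1 := by omega
  have a2 : M ≤ j + 2 := by omega
  have a3 : M ≤ j + 3 := by omega
  have b1 : M * (j + 2).factorial ≤ (j + 3) * (j + 2).factorial := Nat.mul_le_mul_right _ a3
  have b2 : M * (M * (M * j.factorial)) ≤ (j + 3) * (j + 2).factorial := by
    rw [g2]
    gcongr
  rw [e1, e2, f2, f4, g1]
  calc _ = d * (2 * M * (M * (j + 2).factorial)) +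
        4 * d ^ 2 * (2 * M * (M * (M * (M * j.factorial)))) := by ring
    _ ≤ d * (2 * M * ((j + 3) * (j + 2).factorial)) +
        4 * d ^ 2 * (2 * M * ((j + 3) * (j + 2).factorial)) := by gcongr
    _ = _ := by ring

theorem dfe (h1 : DfE1) : DfE := by
  intro d n M t h hM hF
  obtain ⟨k1, k2⟩ := h1 d n M t hF
  rw [DfE_swap]
  refine le_trans ((sum_le_card_nsmul _ _
    (n * d ^ 2 * (2 * M - 2).factorial + M * (2 * n ^ 2 * d ^ 4 * (2 * M - 4).factorial))
    fun j _ => ?_).trans_eq ?_) (DfE_num h hM)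
  · refine (DfE_one t j).trans (Nat.add_le_add (k1 j) ?_)
    refine (sum_le_card_nsmul _ _ _ fun i hi => k2 i j (mem_erase.1 hi).1).trans ?_
    rw [smul_eq_mul]
    exact Nat.mul_le_mul_right _ ((card_le_univ _).trans_eq (Fintype.card_fin M))
  · rw [smul_eq_mul, card_univ, Fintype.card_fin]

end Vale.Agent.P156
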