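import Vale.Agent.P156.Stm

namespace Vale.Agent.P156

open Finset Polynomial

theorem DfE1_cov (h1 : Hit) {d n M : ℕ} {t : Pos M → Fin n} (ht : Fib d t) {ι κ : Type}
    [Fintype ι] [Fintype κ] (x : ι → Pos M) (hx : Function.Injective x) (f : κ → ι → Fin n)
    (P : (Pos M → Fin n) → Prop) (hP : ∀ τ, P τ → ∃ k, ∀ i, τ (x i) = f k i) :
    nP t P ≤ Fintype.card κ * (d ^ Fintype.card ι * (2 * M - Fintype.card ι).factorial) := by
  classical
  have e : sP t P ⊆ univ.biUnion fun k => hitS x fun i => univ.filter fun y => t y = f k i := by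
    intro σ hσ
    obtain ⟨k, hk⟩ := hP _ ((mem_sP t P σ).1 hσ)
    refine mem_biUnion.2 ⟨k, mem_univ _, (mem_hitS _ _ σ).2 fun i => ?_⟩
    exact mem_filter.2 ⟨mem_univ _, hk i⟩
  refine (card_le_card e).trans (card_biUnion_le_card_mul _ _ _ fun k _ => ?_)
  have h := h1 (Pos M) ι x (fun i => univ.filter fun y => t y = f k i) hx
  have c : ∀ u, (univ.filter fun y => t y = u).card = d := ht
  simp only [card_pos', c, prod_const, card_univ] at h
  exact h

theorem dfe1 (h1 : Hit) : DfE1 := by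
  intro d n M t ht
  refine ⟨fun j => ?_, fun i j hij => ?_⟩
  · have h := DfE1_cov h1 ht (fun b : Bool => (j, b)) (fun a b h => (Prod.ext_iff.1 h).2)
      (fun (u : Fin n) _ => u) (fun τ => τ (j, false) = τ (j, true)) fun τ h =>
        ⟨τ (j, true), fun b => by cases b <;> simp [h]⟩
    simpa [mul_assoc] using h
  · have h := DfE1_cov h1 ht (fun p : Bool × Bool => (if p.1 then j else i, p.2)) ?_
      (fun (k : Bool × Fin n × Fin n) p => if xor p.2 (p.1 && k.1) then k.2.2 else k.2.1)
      (fun τ => ed τ i = ed τ j) fun τ h => ?_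
    · refine h.trans (le_of_eq ?_)
      simp only [Fintype.card_prod, Fintype.card_bool, Fintype.card_fin]
      ring
    · rintro ⟨a, b⟩ ⟨a', b'⟩ h
      obtain ⟨k1, k2⟩ := Prod.ext_iff.1 h
      cases a <;> cases a' <;> simp_all [eq_comm]
    · rcases Sym2.eq_iff.1 h with ⟨k1, k2⟩ | ⟨k1, k2⟩
      · refine ⟨(false, τ (i, false), τ (i, true)), ?_⟩
        rintro ⟨a, b⟩
        cases a <;> cases b <;> simp [k1, k2]
      · refine ⟨(true, τ (i, false), τ (i, true)), ?_⟩
        rintro ⟨a, b⟩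
        cases a <;> cases b <;> simp [k1, k2]

end Vale.Agent.P156
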