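import Vale.Agent.P156.Stm

namespace Vale.Agent.P156

open Finset Polynomial

theorem Dpr_one (h1 : Hit) {M : ℕ} (J : Finset (Fin M)) (B : Finset (Pos M)) :
    (hitS (fun p : J × Bool => ((p.1.1, p.2) : Pos M)) (fun _ => B)).card ≤
      B.card ^ (2 * J.card) * (2 * M - 2 * J.card).factorial := by
  have hinj : Function.Injective (fun p : J × Bool => ((p.1.1, p.2) : Pos M)) := by
    rintro ⟨j, b⟩ ⟨j', b'⟩ h
    simp only [Prod.mk.injEq] at h
    exact Prod.ext (Subtype.ext h.1) h.2
  have h := h1 (Pos M) (J × Bool) _ (fun _ => B) hinj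
  have hc : Fintype.card (J × Bool) = 2 * J.card := by
    rw [Fintype.card_prod, Fintype.card_coe, Fintype.card_bool, mul_comm]
  rw [Finset.prod_const, Finset.card_univ, hc, card_pos'] at h
  exact h

theorem dpr (h1 : Hit) (h2 : CntC) : Dpr := by
  intro d n M t U k ht
  have hB := (h2 d M n t ht).2 U
  set B : Finset (Pos M) := univ.filter fun x => t x ∈ U with hBdef
  have hsub : sP t (fun τ => k ≤ inn τ U) ⊆
      (powersetCard k (univ : Finset (Fin M))).biUnion fun J =>
        hitS (fun p : J × Bool => ((p.1.1, p.2) : Pos M)) (fun _ => B) := by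
    intro σ hσ
    rw [mem_sP] at hσ
    obtain ⟨J, hJ, hJk⟩ := Finset.exists_subset_card_eq hσ
    refine Finset.mem_biUnion.2 ⟨J, Finset.mem_powersetCard.2 ⟨subset_univ _, hJk⟩, ?_⟩
    rw [mem_hitS]
    rintro ⟨⟨j, hj⟩, b⟩
    have hm := (Finset.mem_filter.1 (hJ hj)).2
    refine Finset.mem_filter.2 ⟨mem_univ _, ?_⟩
    cases b
    · exact hm.1
    · exact hm.2
  unfold nP
  refine (card_le_card hsub).trans (card_biUnion_le.trans ?_)
  have hle : ∀ J ∈ powersetCard k (univ : Finset (Fin M)),
      (hitS (fun p : J × Bool => ((p.1.1, p.2) : Pos M)) (fun _ => B)).card ≤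
        (d * U.card) ^ (2 * k) * (2 * M - 2 * k).factorial := by
    intro J hJ
    have hk := (Finset.mem_powersetCard.1 hJ).2
    have h := Dpr_one h1 J B
    rw [hk, hB] at h
    exact h
  refine (Finset.sum_le_card_nsmul _ _ _ hle).trans (le_of_eq ?_)
  rw [card_powersetCard, card_univ, Fintype.card_fin, smul_eq_mul, mul_assoc]

end Vale.Agent.P156
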