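import Vale.Agent.P156.Stm

namespace Vale.Agent.P156

open Finset Polynomial

theorem Drt_ed {n M : ℕ} (τ : Pos M → Fin n) (x : Pos M) : ed τ x.1 = s(τ x, τ (fl x)) := by
  rcases x with ⟨j, b⟩
  cases b
  · rfl
  · exact Sym2.eq_swap

theorem Drt_ne {n M : ℕ} {τ : Pos M → Fin n} (h : Simp τ) (x : Pos M) : τ x ≠ τ (fl x) := by
  rcases x with ⟨j, b⟩
  intro e
  cases b
  · exact h j (Or.inl e)
  · exact h j (Or.inl e.symm)

theorem drt : Drt := by
  intro n M τ h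
  refine ⟨fun x y h1 h2 => ?_, fun u w => ?_⟩
  · have e : x.1 = y.1 := by
      by_contra hne
      exact h y.1 (Or.inr ⟨x.1, hne, by rw [Drt_ed, Drt_ed, h1, h2]⟩)
    rcases x with ⟨j, b⟩
    rcases y with ⟨i, c⟩
    obtain rfl : j = i := e
    cases b <;> cases c
    · rfl
    · exact absurd h1 (Drt_ne h (j, false))
    · exact absurd h1 (Drt_ne h (j, true))
    · rfl
  · unfold Gr
    rw [SimpleGraph.fromRel_adj]
    constructor
    · rintro ⟨-, ⟨x, h1, h2⟩ | ⟨x, h1, h2⟩⟩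
      · exact ⟨x, h1, h2⟩
      · exact ⟨fl x, h2, by rw [fl_fl]; exact h1⟩
    · rintro ⟨x, rfl, rfl⟩
      exact ⟨Drt_ne h x, Or.inl ⟨x, rfl, rfl⟩⟩

end Vale.Agent.P156
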