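import Vale.Agent.P156.Stm

namespace Vale.Agent.P156

open Finset Polynomial

theorem dsum (h1 : Drt) : Dsum := by
  intro n M τ hs
  obtain ⟨hi, ha⟩ := h1 n M τ hs
  have key : ∀ (R : Type) [AddCommMonoid R] (f : Fin n → R) (u : Fin n),
      ∑ x ∈ univ.filter (fun x => τ x = u), f (τ (fl x)) = ∑ w ∈ nbr (Gr τ) u, f w := by
    intro R _ f u
    refine Finset.sum_bij (fun x _ => τ (fl x)) ?_ ?_ ?_ (fun _ _ => rfl)
    · intro x hx
      rw [mem_nbr, ha]
      exact ⟨x, (mem_filter.1 hx).2, rfl⟩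
    · intro x hx y hy e
      exact hi x y ((mem_filter.1 hx).2.trans (mem_filter.1 hy).2.symm) e
    · intro w hw
      rw [mem_nbr, ha] at hw
      obtain ⟨x, hx, e⟩ := hw
      exact ⟨x, mem_filter.2 ⟨mem_univ _, hx⟩, e⟩
  refine ⟨fun u => ?_, key⟩
  have := key ℕ (fun _ => 1) u
  rw [← card_nbr, cnt, card_eq_sum_ones, card_eq_sum_ones]
  exact this.symm

end Vale.Agent.P156
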