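import Vale.Agent.P156.Stm

namespace Vale.Agent.P156

open Finset Polynomial

theorem enu : Enu := by
  classical
  intro n d M G hG hM
  have h1 : G.edgeFinset.card = M := by
    have := G.sum_degrees_eq_twice_card_edges
    rw [sum_congr rfl fun v _ => show G.degree v = d by
      rw [← hG v, ← G.card_neighborSet_eq_degree, Set.ncard_eq_toFinset_card', Set.toFinset_card],
      sum_const, card_univ, Fintype.card_fin, smul_eq_mul] at this
    omega
  let f := (Finset.equivFinOfCardEq h1).symm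
  choose a b hab using fun j => (Sym2.exists (f := fun z => z = (f j : Sym2 (Fin n)))).1 ⟨_, rfl⟩
  have adj : ∀ j, G.Adj (a j) (b j) := fun j => by
    rw [← G.mem_edgeSet, hab, ← SimpleGraph.mem_edgeFinset]
    exact (f j).2
  refine ⟨fun x => if x.2 then b x.1 else a x.1, ?_, ?_⟩
  · rintro j (h | ⟨i, h, e⟩)
    · exact (adj j).ne h
    · exact h (f.injective (Subtype.ext ((hab i).symm.trans (e.trans (hab j)))))
  · ext u w
    rw [Gr, SimpleGraph.fromRel_adj]
    constructor
    · rintro ⟨-, ⟨⟨j, _ | _⟩, rfl, rfl⟩ | ⟨⟨j, _ | _⟩, rfl, rfl⟩⟩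
      exacts [adj j, (adj j).symm, (adj j).symm, adj j]
    · intro h
      obtain ⟨j, hj⟩ := f.surjective ⟨s(u, w), SimpleGraph.mem_edgeFinset.2 h⟩
      have e := hab j
      rw [hj, Sym2.eq_iff] at e
      rcases e with e | e
      exacts [⟨h.ne, Or.inl ⟨(j, false), e⟩⟩, ⟨h.ne, Or.inr ⟨(j, false), e⟩⟩]

end Vale.Agent.P156
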