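import Vale.Agent.P156.Stm

namespace Vale.Agent.P156

open Finset Polynomial

theorem Exq_cnt {α X : Type} [Fintype α] [Fintype X] [DecidableEq X] (g : α → X) (z : X → ℂ) :
    ∏ x, z x ^ cnt g x = ∏ a, z (g a) := by
  rw [← Finset.prod_fiberwise univ g fun a => z (g a)]
  refine prod_congr rfl fun x _ => ?_
  rw [prod_congr rfl (g := fun _ => z x) fun a ha => by rw [(mem_filter.1 ha).2], prod_const, cnt]

/-- the two ends of each edge -/
def Exq_eqv (M : ℕ) (X : Type) : (Pos M → X) ≃ (Fin M → X × X) where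
  toFun g j := (g (j, false), g (j, true))
  invFun h x := if x.2 then (h x.1).2 else (h x.1).1
  left_inv g := by
    funext x
    rcases x with ⟨j, b⟩
    cases b <;> rfl
  right_inv h := rfl

theorem exq : Exq := by
  intro M X _ _ K z
  have h1 : Qf K z = ∑ q : X × X, z q.1 * z q.2 * K q.1 q.2 := by
    rw [Qf, Fintype.sum_prod_type]
  have h2 : Qf K z ^ M = ∏ _j : Fin M, ∑ q : X × X, z q.1 * z q.2 * K q.1 q.2 := by
    rw [prod_const, card_univ, Fintype.card_fin, h1]
  rw [h2, Finset.prod_univ_sum, Fintype.piFinset_univ, ← (Exq_eqv M X).sum_comp]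
  refine sum_congr rfl fun g _ => ?_
  rw [Exq_cnt, Fintype.prod_prod_type, W, ← prod_mul_distrib]
  refine prod_congr rfl fun j _ => ?_
  rw [Fintype.prod_bool, mul_comm (z (g (j, true)))]
  rfl

end Vale.Agent.P156
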