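import Vale.Agent.P156.Stm

namespace Vale.Agent.P156

open Finset Polynomial

theorem ext_pf : Ext := by
  intro d n M h
  obtain ⟨e⟩ : Nonempty (Pos M ≃ Fin n × Fin d) :=
    ⟨Fintype.equivOfCardEq (by rw [card_pos', h]; simp)⟩
  refine ⟨Prod.fst ∘ e, fun u => ?_⟩
  have : (univ.filter fun q : Fin n × Fin d => q.1 = u) = {u} ×ˢ univ := by
    ext q
    simp only [mem_filter, mem_univ, true_and, mem_product, mem_singleton, and_true]
  rw [cnt, Finset.card_bijective e e.bijective (t := univ.filter fun q : Fin n × Fin d => q.1 = u)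
    (by simp), this]
  simp

end Vale.Agent.P156
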