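import Vale.Agent.P156.Stm

namespace Vale.Agent.P156

open Finset Polynomial

theorem FinD_deg {D : ℕ} {E : ℝ} (hi : IsIntegral ℤ E) (h : DegLe D E) :
    (minpoly ℤ E).natDegree ≤ D := by
  obtain ⟨f, hf, hD, hE⟩ := h
  rw [← (minpoly.monic hi).natDegree_map (algebraMap ℤ ℚ),
    ← minpoly.isIntegrallyClosed_eq_field_fractions' ℚ hi]
  exact (natDegree_le_of_dvd (minpoly.dvd ℚ E hE) hf).trans hD

theorem finD (h1 : AlgA) (h2 : Root) : FinD := by
  classical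
  intro d D
  let C := Nat.ceil (max (d : ℝ) 1 ^ D * D.choose (D / 2))
  have := bUnion_roots_finite (algebraMap ℤ ℝ) D (Set.finite_Icc (-C : ℤ) C)
  refine this.subset ?_
  rintro E ⟨⟨n, G, hG, hE⟩, hD⟩
  obtain ⟨-, hi, g, hg⟩ := h1 n G E hE
  have hd := FinD_deg hi hD
  simp_rw [Set.mem_iUnion]
  refine ⟨_, ⟨hd, fun i => ?_⟩, mem_rootSet.2 ⟨minpoly.ne_zero hi, minpoly.aeval ℤ E⟩⟩
  have hb := coeff_bdd_of_roots_le (B := (d : ℝ)) (algebraMap ℤ ℂ) (minpoly.monic hi)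
    (IsAlgClosed.splits _) hd (fun z hz => h2 n d G hG z (by
      have h3 : aeval z (minpoly ℤ E) = 0 := by
        rw [aeval_def, eval₂_eq_eval_map]
        exact (mem_roots'.1 hz).2
      rw [hg, map_mul, h3, zero_mul])) i
  rw [Set.mem_Icc, ← abs_le, ← @Int.cast_le ℝ]
  refine (Eq.trans_le ?_ hb).trans (Nat.le_ceil _)
  rw [coeff_map, eq_intCast, Complex.norm_intCast, Int.cast_abs]

end Vale.Agent.P156
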