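import Vale.Agent.P156.Stm

namespace Vale.Agent.P156

open Finset Polynomial

theorem Fou_map_sum {p : ℕ} [Fact p.Prime] {ι : Type} (s : Finset ι) (f : ι → ZMod p) :
    (ZMod.stdAddChar (∑ i ∈ s, f i) : ℂ) = ∏ i ∈ s, ZMod.stdAddChar (f i) := by
  classical
  induction s using Finset.induction_on with
  | empty => simp
  | insert a s ha ih => rw [sum_insert ha, prod_insert ha, AddChar.map_add_eq_mul, ih]

theorem Fou_sum {p n : ℕ} [Fact p.Prime] (b : Fin n → ZMod p) :
    ∑ w : Fin n → ZMod p, (ZMod.stdAddChar (∑ u, w u * b u) : ℂ) =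
      ∏ u, if b u = 0 then (p : ℂ) else 0 := by
  have h1 : ∀ u, ∑ a : ZMod p, (ZMod.stdAddChar (a * b u) : ℂ) =
      if b u = 0 then (p : ℂ) else 0 := by
    intro u
    rw [AddChar.sum_mulShift (b u) (ZMod.isPrimitive_stdAddChar p), ZMod.card]
    split_ifs <;> simp
  simp only [Fou_map_sum]
  rw [← prod_congr rfl fun u _ => h1 u, Finset.prod_univ_sum, Fintype.piFinset_univ]

theorem fou (h1 : FouA) : Fou := by
  intro p _ M n e τ v
  have hs : ∑ w, Phi e τ v w = ∏ u, if (∑ x ∈ univ.filter (fun x => τ x = u), v (τ (fl x))) -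
      e * v u = 0 then (p : ℂ) else 0 := by
    simp only [h1 p M n e τ v]
    exact Fou_sum _
  refine ⟨fun h => ?_, fun h => ?_, fun w => ?_, fun w => ?_⟩
  · rw [hs, prod_congr rfl fun u _ => if_pos (sub_eq_zero.2 (h u))]
    simp
  · rw [hs]
    obtain ⟨u, hu⟩ := not_forall.1 h
    exact prod_eq_zero (mem_univ u) (if_neg fun h0 => hu (sub_eq_zero.1 h0))
  · unfold Phi W Kp pr
    have e1 : ∑ u, w u * v u = ∑ u, v u * w u := sum_congr rfl fun u _ => mul_comm _ _
    rw [e1]
    congr 1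
    refine prod_congr rfl fun j _ => ?_
    congr 1
    simp only [Function.comp_apply]
    ring
  · rw [h1 p M n e τ v w, ZMod.stdAddChar_apply, Circle.norm_coe]

end Vale.Agent.P156
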