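import Vale.Agent.P156.Stm

namespace Vale.Agent.P156

open Finset Polynomial

theorem FouA_sum {A ι : Type} [AddCommMonoid A] (ψ : AddChar A ℂ) (s : Finset ι) (f : ι → A) :
    ψ (∑ i ∈ s, f i) = ∏ i ∈ s, ψ (f i) := by
  classical
  induction s using Finset.induction_on with
  | empty => simp
  | insert a s ha ih => rw [sum_insert ha, prod_insert ha, AddChar.map_add_eq_mul, ih]

theorem fouA : FouA := by
  intro p _ M n e τ v w
  have h1 : ∑ u, w u * ∑ x ∈ univ.filter (fun x => τ x = u), v (τ (fl x)) =
      ∑ x : Pos M, w (τ x) * v (τ (fl x)) := by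
    rw [← Finset.sum_fiberwise univ τ]
    refine sum_congr rfl fun u _ => ?_
    rw [mul_sum]
    exact sum_congr rfl fun x hx => by rw [(mem_filter.1 hx).2]
  have h2 : ∑ u, w u * (e * v u) = e * ∑ u, w u * v u := by
    rw [mul_sum]
    exact sum_congr rfl fun u _ => by ring
  simp only [Phi, W, Kp, mul_sub, sum_sub_distrib]
  rw [h1, h2, ← FouA_sum, ← AddChar.map_add_eq_mul, Fintype.sum_prod_type, neg_add_eq_sub]
  congr 2
  refine sum_congr rfl fun j _ => ?_
  simp only [Fintype.sum_bool, fl_true, fl_false, pr, Function.comp_apply]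
  ring

end Vale.Agent.P156
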