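import Vale.Agent.P156.Stm

namespace Vale.Agent.P156

open Finset Polynomial

theorem fwd (h1 : Fwd1) (h2 : CntC) : Fwd := by
  intro d n M τ j hF hD
  have c1 : ∀ b, (univ.filter fun x => τ x ∈ insert b (Nb τ b)).card ≤ d * (d + 1) := fun b => by
    rw [(h2 d M n τ hF).2]
    exact Nat.mul_le_mul_left d ((card_insert_le _ _).trans (Nat.succ_le_succ (card_Nb hF b)))
  have hs : (univ : Finset (Pos M)) ⊆ goodS τ j ∪ ((({j} : Finset (Fin M)) ×ˢ univ ∪ dS τ ×ˢ univ) ∪
      ((univ.filter fun x => τ x ∈ insert (τ (j, true)) (Nb τ (τ (j, true)))) ∪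
        (univ.filter fun x => τ x ∈ insert (τ (j, false)) (Nb τ (τ (j, false)))).image fl)) := by
    intro y _
    by_contra hn
    simp only [mem_union, not_or, mem_product, mem_singleton, mem_univ, and_true, mem_filter,
      true_and, mem_insert, mem_dS, mem_image, not_exists, not_and] at hn
    obtain ⟨a1, ⟨a2, a3⟩, ⟨a4, a5⟩, a6⟩ := hn
    refine a1 (h1 n M τ j y hD a2 (fun h => a3 (Or.inl ?_)) a4 a5
      (fun h => a6 _ (Or.inl h) (fl_fl y)) fun h => a6 _ (Or.inr h) (fl_fl y))
    obtain ⟨i, _ | _⟩ := y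
    exacts [h, h.symm]
  have h := card_le_card hs
  rw [card_univ, card_pos'] at h
  refine h.trans ((card_union_le _ _).trans (Nat.add_le_add_left ((card_union_le _ _).trans
    (Nat.add_le_add ((card_union_le _ _).trans (le_of_eq ?_)) ((card_union_le _ _).trans ?_))) _))
  · simp [Df, mul_comm]
  · rw [two_mul]
    exact Nat.add_le_add (c1 _) (card_image_le.trans (c1 _))

end Vale.Agent.P156
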