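import Vale.Agent.P156.Stm

namespace Vale.Agent.P156

open Finset Polynomial

theorem Fwd1_nb {M n : ℕ} {τ : Pos M → Fin n} {i : Fin M} {u w : Fin n}
    (h : ed τ i = s(u, w)) : u ∈ Nb τ w := by
  rw [mem_Nb]
  rcases Sym2.eq_iff.1 h with h | h
  · exact ⟨(i, true), h.2, h.1⟩
  · exact ⟨(i, false), h.1, h.2⟩

theorem Fwd1_oth {M n : ℕ} (τ : Pos M → Fin n) (j : Fin M) (y : Pos M) (x : Pos M)
    (h1 : x ≠ (j, false)) (h2 : x ≠ y) : sw τ j y x = τ x := by
  simp only [sw, Function.comp, Equiv.swap_apply_of_ne_of_ne h1 h2]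

theorem fwd1 : Fwd1 := by
  intro n M τ j y hD hy h1 h2 h3 h4 h5
  have ha : τ (j, false) ∈ Nb τ (τ (j, true)) := Fwd1_nb (i := j) rfl
  have hb : τ (j, true) ∈ Nb τ (τ (j, false)) := Fwd1_nb (i := j) Sym2.eq_swap
  have hca : τ y ≠ τ (j, false) := fun h => h3 (h ▸ ha)
  have r1 : sw τ j y (j, false) = τ y := by simp [sw]
  have r2 : sw τ j y (j, true) = τ (j, true) :=
    Fwd1_oth τ j y _ (by simp) fun h => hy (by rw [← h])
  have r3 : sw τ j y y = τ (j, false) := by simp [sw]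
  have r4 : sw τ j y (fl y) = τ (fl y) :=
    Fwd1_oth τ j y _ (fun h => hy (by rw [← fl_fst y, h])) (fl_ne y)
  have r5 : ∀ (i : Fin M) (b : Bool), i ≠ j → i ≠ y.1 → sw τ j y (i, b) = τ (i, b) :=
    fun i b hi hi' => Fwd1_oth τ j y _ (fun h => hi (congrArg Prod.fst h))
      fun h => hi' (congrArg Prod.fst h)
  have e1 : ed (sw τ j y) j = s(τ y, τ (j, true)) := by rw [ed, r1, r2]
  have e2 : ed (sw τ j y) y.1 = s(τ (j, false), τ (fl y)) := by
    rcases y with ⟨k, b⟩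
    cases b
    · rw [fl_false] at r4
      rw [ed, r3, r4, fl_false]
    · rw [fl_true] at r4
      rw [ed, r3, r4, fl_true, Sym2.eq_swap]
  have e3 : ∀ i, i ≠ j → i ≠ y.1 → ed (sw τ j y) i = ed τ i := fun i hi hi' => by
    rw [ed, ed, r5 i false hi hi', r5 i true hi hi']
  have e4 : s(τ (j, false), τ (fl y)) ≠ s(τ y, τ (j, true)) := fun h => by
    rcases Sym2.eq_iff.1 h with h | h
    · exact hca h.1.symm
    · exact h1 h.2.symm
  have n1 : ¬ Dfc (sw τ j y) j := by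
    rintro (h | ⟨i, hi, h⟩)
    · rw [r1, r2] at h
      exact h2 h
    · rw [e1] at h
      by_cases hi' : i = y.1
      · rw [hi', e2] at h
        exact e4 h
      · rw [e3 i hi hi'] at h
        exact h3 (Fwd1_nb h)
  have n2 : ¬ Dfc (sw τ j y) y.1 := by
    rintro (h | ⟨i, hi, h⟩)
    · have hd : (ed (sw τ j y) y.1).IsDiag := Sym2.mk_isDiag_iff.2 h
      rw [e2] at hd
      exact h4 (Sym2.mk_isDiag_iff.1 hd).symm
    · rw [e2] at h
      by_cases hi' : i = j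
      · rw [hi', e1] at h
        exact e4 h.symm
      · rw [e3 i hi' hi, Sym2.eq_swap] at h
        exact h5 (Fwd1_nb h)
  have hsub : dS (sw τ j y) ⊆ (dS τ).erase j := by
    intro i hi
    rw [mem_dS] at hi
    have hij : i ≠ j := fun h => n1 (h ▸ hi)
    have hiy : i ≠ y.1 := fun h => n2 (h ▸ hi)
    rw [mem_erase, mem_dS]
    refine ⟨hij, ?_⟩
    rcases hi with h | ⟨k, hk, h⟩
    · rw [r5 i false hij hiy, r5 i true hij hiy] at h
      exact Or.inl h
    · have hkj : k ≠ j := fun e => n1 (Or.inr ⟨i, hij, by rw [← h, e]⟩)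
      have hky : k ≠ y.1 := fun e => n2 (Or.inr ⟨i, hiy, by rw [← h, e]⟩)
      rw [e3 k hkj hky, e3 i hij hiy] at h
      exact Or.inr ⟨k, hk, h⟩
  rw [mem_goodS]
  refine ⟨hy, ?_, by rw [r1, r2]; exact h2⟩
  exact lt_of_le_of_lt (card_le_card hsub) (card_erase_lt_of_mem ((mem_dS τ j).2 hD))

end Vale.Agent.P156
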