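import Vale.Agent.P156.Stm

namespace Vale.Agent.P156

open Finset Polynomial

theorem gap (h1 : GapA) (h2 : GapB) : Gap := by
  intro p _ hp δ hδ
  obtain ⟨κ, k0, k1, hκ⟩ := h2 p hp δ hδ
  refine ⟨(3 + κ) / 4, by positivity, by linarith, fun ν hν ha hs z hz => ?_⟩
  have b := one_add_mul_le_pow (a := -(1 - κ) / 4) (by linarith) 4
  have k := (h1 p ν z hν hz).trans (hκ ν (fun x => hz x ▸ norm_nonneg _) hν ha hs)
  refine (pow_le_pow_iff_left₀ (norm_nonneg _) (by positivity) four_ne_zero).1 (k.trans ?_)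
  rw [show (3 + κ) / 4 = 1 + -(1 - κ) / 4 by ring]
  refine le_trans (le_of_eq ?_) b
  push_cast
  ring

end Vale.Agent.P156
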