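import Vale.Agent.P156.Stm

namespace Vale.Agent.P156

open Finset Polynomial

theorem GapA_cs {X : Type} [Fintype X] (w f : X → ℝ) (h0 : ∀ x, 0 ≤ w x) (h1 : ∑ x, w x = 1) :
    (∑ x, w x * f x) ^ 2 ≤ ∑ x, w x * f x ^ 2 := by
  have h := Finset.sum_mul_sq_le_sq_mul_sq univ (fun x => √(w x)) (fun x => √(w x) * f x)
  have e1 : ∑ x, √(w x) * (√(w x) * f x) = ∑ x, w x * f x :=
    Finset.sum_congr rfl fun x _ => by rw [← mul_assoc, Real.mul_self_sqrt (h0 x)]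
  have e2 : ∑ x, √(w x) ^ 2 = 1 := by
    rw [← h1]
    exact Finset.sum_congr rfl fun x _ => Real.sq_sqrt (h0 x)
  have e3 : ∑ x, (√(w x) * f x) ^ 2 = ∑ x, w x * f x ^ 2 :=
    Finset.sum_congr rfl fun x _ => by rw [mul_pow, Real.sq_sqrt (h0 x)]
  rw [e1, e2, e3, one_mul] at h
  exact h

theorem GapA_step {X : Type} [Fintype X] (w : X → ℝ) (a F : X → ℂ) (h1 : ∑ x, w x = 1)
    (ha : ∀ x, ‖a x‖ = w x) : ‖∑ x, a x * F x‖ ^ 2 ≤ ∑ x, w x * ‖F x‖ ^ 2 := by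
  have h0 : ∀ x, 0 ≤ w x := fun x => ha x ▸ norm_nonneg _
  refine le_trans ?_ (GapA_cs w (fun x => ‖F x‖) h0 h1)
  apply pow_le_pow_left₀ (norm_nonneg _)
  refine (norm_sum_le _ _).trans (le_of_eq ?_)
  exact Finset.sum_congr rfl fun x _ => by rw [norm_mul, ha]

theorem GapA_nsq {X : Type} [Fintype X] (a : X → ℂ) :
    ((‖∑ x, a x‖ ^ 2 : ℝ) : ℂ) = ∑ x, ∑ y, a x * (starRingEnd ℂ) (a y) := by
  rw [← Finset.sum_mul_sum, ← map_sum, Complex.mul_conj, Complex.normSq_eq_norm_sq]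

theorem GapA_gen {G : Type} [Fintype G] [Sub G] (K : G → G → ℂ)
    (k1 : ∀ x y y', K x y * (starRingEnd ℂ) (K x y') = K x (y - y'))
    (k2 : ∀ x x' u, K x u * (starRingEnd ℂ) (K x' u) = K (x - x') u)
    (ν : G → ℝ) (z : G → ℂ) (h1 : ∑ x, ν x = 1) (hz : ∀ x, ‖z x‖ = ν x) :
    ‖Qf K z‖ ^ 4 ≤ ∑ x, ∑ x', ∑ y, ∑ y', ν x * ν x' * ν y * ν y' * (K (x - x') (y - y')).re := by
  have eQ : Qf K z = ∑ x, z x * ∑ y, z y * K x y := by
    unfold Qf
    refine Finset.sum_congr rfl fun x _ => ?_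
    rw [Finset.mul_sum]
    exact Finset.sum_congr rfl fun y _ => by ring
  have s1 := GapA_step ν z (fun x => ∑ y, z y * K x y) h1 hz
  rw [← eQ] at s1
  have e1 : ((∑ x, ν x * ‖∑ y, z y * K x y‖ ^ 2 : ℝ) : ℂ) =
      ∑ q : G × G, (z q.1 * (starRingEnd ℂ) (z q.2)) * ∑ x, (ν x : ℂ) * K x (q.1 - q.2) := by
    rw [Complex.ofReal_sum]
    simp only [Complex.ofReal_mul, GapA_nsq, Finset.mul_sum]
    rw [Finset.sum_comm (s := (univ : Finset (G × G)))]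
    refine Finset.sum_congr rfl fun x _ => ?_
    rw [Fintype.sum_prod_type]
    refine Finset.sum_congr rfl fun y _ => Finset.sum_congr rfl fun y' _ => ?_
    rw [← k1, map_mul]
    ring
  have s2 := GapA_step (fun q : G × G => ν q.1 * ν q.2)
    (fun q => z q.1 * (starRingEnd ℂ) (z q.2)) (fun q => ∑ x, (ν x : ℂ) * K x (q.1 - q.2))
    (by rw [Fintype.sum_prod_type, ← Finset.sum_mul_sum, h1, one_mul])
    (fun q => by rw [norm_mul, Complex.norm_conj, hz, hz])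
  rw [← e1, Complex.norm_real, Real.norm_eq_abs, sq_abs] at s2
  have e2 : ∀ u, ‖∑ x, (ν x : ℂ) * K x u‖ ^ 2 = ∑ x, ∑ x', ν x * ν x' * (K (x - x') u).re := by
    intro u
    have h := congrArg Complex.re (GapA_nsq fun x => (ν x : ℂ) * K x u)
    rw [Complex.ofReal_re] at h
    rw [h, Complex.re_sum]
    refine Finset.sum_congr rfl fun x _ => ?_
    rw [Complex.re_sum]
    refine Finset.sum_congr rfl fun x' _ => ?_
    have e : (ν x : ℂ) * K x u * (starRingEnd ℂ) ((ν x' : ℂ) * K x' u) =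
        ((ν x * ν x' : ℝ) : ℂ) * K (x - x') u := by
      rw [← k2, map_mul, Complex.conj_ofReal, Complex.ofReal_mul]
      ring
    rw [e, Complex.re_ofReal_mul]
  have e3 : ∑ q : G × G, ν q.1 * ν q.2 * ‖∑ x, (ν x : ℂ) * K x (q.1 - q.2)‖ ^ 2 =
      ∑ x, ∑ x', ∑ y, ∑ y', ν x * ν x' * ν y * ν y' * (K (x - x') (y - y')).re := by
    simp only [e2, Finset.mul_sum]
    rw [Finset.sum_comm (s := (univ : Finset (G × G)))]
    refine Finset.sum_congr rfl fun x _ => ?_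
    rw [Finset.sum_comm (s := (univ : Finset (G × G)))]
    refine Finset.sum_congr rfl fun x' _ => ?_
    rw [Fintype.sum_prod_type]
    refine Finset.sum_congr rfl fun y _ => Finset.sum_congr rfl fun y' _ => ?_
    ring
  rw [e3] at s2
  calc ‖Qf K z‖ ^ 4 = (‖Qf K z‖ ^ 2) ^ 2 := by ring
    _ ≤ (∑ x, ν x * ‖∑ y, z y * K x y‖ ^ 2) ^ 2 := pow_le_pow_left₀ (sq_nonneg _) s1 2
    _ ≤ _ := s2

theorem gapA : GapA := by
  intro p _ ν z h1 hz
  refine GapA_gen (Kp p) (fun x y y' => ?_) (fun x x' u => ?_) ν z h1 hz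
  · unfold Kp
    rw [← AddChar.map_neg_eq_conj, ← AddChar.map_add_eq_mul]
    congr 1
    simp only [Prod.fst_sub, Prod.snd_sub]
    ring
  · unfold Kp
    rw [← AddChar.map_neg_eq_conj, ← AddChar.map_add_eq_mul]
    congr 1
    simp only [Prod.fst_sub, Prod.snd_sub]
    ring

end Vale.Agent.P156
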