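import Vale.Agent.P156.Stm

namespace Vale.Agent.P156

open Finset Polynomial

theorem GapB_abs {X : Type} [Fintype X] (ν : X → ℝ) (f : X → X → X → X → ℝ)
    (h0 : ∀ x, 0 ≤ ν x) (h1 : ∑ x, ν x = 1) (hf : ∀ x x' y y', f x x' y y' ≤ 1)
    (a b c d : X) (k w : ℝ) (hk : f a b c d ≤ k) (hk1 : k ≤ 1)
    (hw : w ≤ ν a * ν b * ν c * ν d) :
    ∑ x, ∑ x', ∑ y, ∑ y', ν x * ν x' * ν y * ν y' * f x x' y y' ≤ 1 - (1 - k) * w := by
  have hg : ∀ x x' y y', 0 ≤ ν x * ν x' * ν y * ν y' * (1 - f x x' y y') := fun x x' y y' =>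
    mul_nonneg (mul_nonneg (mul_nonneg (mul_nonneg (h0 _) (h0 _)) (h0 _)) (h0 _))
      (sub_nonneg.2 (hf _ _ _ _))
  have e1 : ∑ x, ∑ x', ∑ y, ∑ y', ν x * ν x' * ν y * ν y' = 1 := by
    simp only [← Finset.mul_sum, h1, mul_one]
  have e2 : ∑ x, ∑ x', ∑ y, ∑ y', ν x * ν x' * ν y * ν y' * (1 - f x x' y y') =
      1 - ∑ x, ∑ x', ∑ y, ∑ y', ν x * ν x' * ν y * ν y' * f x x' y y' := by
    simp only [mul_sub, mul_one, Finset.sum_sub_distrib, e1]
  have e3 : ν a * ν b * ν c * ν d * (1 - f a b c d) ≤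
      ∑ x, ∑ x', ∑ y, ∑ y', ν x * ν x' * ν y * ν y' * (1 - f x x' y y') := by
    refine le_trans ?_ (Finset.single_le_sum (f := fun x => ∑ x', ∑ y, ∑ y',
      ν x * ν x' * ν y * ν y' * (1 - f x x' y y')) (fun x _ => sum_nonneg fun _ _ =>
        sum_nonneg fun _ _ => sum_nonneg fun _ _ => hg _ _ _ _) (mem_univ a))
    refine le_trans ?_ (Finset.single_le_sum (f := fun x' => ∑ y, ∑ y',
      ν a * ν x' * ν y * ν y' * (1 - f a x' y y')) (fun x _ =>
        sum_nonneg fun _ _ => sum_nonneg fun _ _ => hg _ _ _ _) (mem_univ b))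
    refine le_trans ?_ (Finset.single_le_sum (f := fun y => ∑ y',
      ν a * ν b * ν y * ν y' * (1 - f a b y y')) (fun x _ =>
        sum_nonneg fun _ _ => hg _ _ _ _) (mem_univ c))
    exact Finset.single_le_sum (f := fun y' =>
      ν a * ν b * ν c * ν y' * (1 - f a b c y')) (fun x _ => hg _ _ _ _) (mem_univ d)
  have hP : 0 ≤ ν a * ν b * ν c * ν d :=
    mul_nonneg (mul_nonneg (mul_nonneg (h0 _) (h0 _)) (h0 _)) (h0 _)
  have e4 : (1 - k) * w ≤ ν a * ν b * ν c * ν d * (1 - f a b c d) := by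
    calc (1 - k) * w ≤ (1 - k) * (ν a * ν b * ν c * ν d) :=
          mul_le_mul_of_nonneg_left hw (sub_nonneg.2 hk1)
      _ ≤ (1 - f a b c d) * (ν a * ν b * ν c * ν d) :=
          mul_le_mul_of_nonneg_right (by linarith) hP
      _ = _ := mul_comm _ _
  linarith

theorem GapB_norm (p : ℕ) [Fact p.Prime] (a : ZMod p) : ‖(ZMod.stdAddChar a : ℂ)‖ = 1 := by
  rw [ZMod.stdAddChar_apply]; exact Circle.norm_coe _

theorem GapB_re (p : ℕ) [Fact p.Prime] (a : ZMod p) : (ZMod.stdAddChar a : ℂ).re ≤ 1 :=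
  le_trans (Complex.re_le_norm _) (le_of_eq (GapB_norm p a))

theorem GapB_lt (p : ℕ) [Fact p.Prime] (a : ZMod p) (ha : a ≠ 0) :
    (ZMod.stdAddChar a : ℂ).re < 1 := by
  refine lt_of_le_of_ne (GapB_re p a) fun h => ha ?_
  have hn := GapB_norm p a
  have h2 : (ZMod.stdAddChar a : ℂ).re * (ZMod.stdAddChar a : ℂ).re +
      (ZMod.stdAddChar a : ℂ).im * (ZMod.stdAddChar a : ℂ).im = 1 := by
    rw [← Complex.normSq_apply, Complex.normSq_eq_norm_sq, hn]; norm_num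
  have h3 : (ZMod.stdAddChar a : ℂ).im = 0 := by
    rw [h] at h2
    exact mul_self_eq_zero.1 (by linarith)
  have h4 : (ZMod.stdAddChar a : ℂ) = ZMod.stdAddChar (0 : ZMod p) := by
    rw [AddChar.map_zero_eq_one]
    exact Complex.ext (by simpa using h) (by simpa using h3)
  exact ZMod.injective_stdAddChar h4

theorem GapB_k {X : Type} (s : Finset X) (g : X → ℝ) (hg : ∀ a ∈ s, g a < 1) :
    ∃ k : ℝ, 0 ≤ k ∧ k < 1 ∧ ∀ a ∈ s, g a ≤ k := by
  classical
  induction s using Finset.induction_on with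
  | empty => exact ⟨0, le_rfl, one_pos, by simp⟩
  | insert a s _ ih =>
    obtain ⟨k, h0, h1, h2⟩ := ih fun b hb => hg b (mem_insert_of_mem hb)
    refine ⟨max k (g a), le_max_of_le_left h0, max_lt h1 (hg a (mem_insert_self _ _)), ?_⟩
    intro b hb
    rcases mem_insert.1 hb with rfl | hb
    · exact le_max_right _ _
    · exact le_max_of_le_left (h2 b hb)

theorem GapB_pick {X : Type} [Fintype X] (ν : X → ℝ) (s : Finset X) (η : ℝ) (hη : 0 < η)
    (hs : η ≤ ∑ x ∈ s, ν x) : ∃ x ∈ s, η / Fintype.card X ≤ ν x := by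
  by_contra hc
  push Not at hc
  have hne : s.Nonempty := by
    rcases s.eq_empty_or_nonempty with rfl | h
    · simp at hs; linarith
    · exact h
  have h1 : ∑ x ∈ s, ν x < ∑ _x ∈ s, η / Fintype.card X := sum_lt_sum_of_nonempty hne hc
  have hc0 : (0 : ℝ) < Fintype.card X := by
    obtain ⟨x, _⟩ := hne
    have : Nonempty X := ⟨x⟩
    exact_mod_cast Fintype.card_pos
  have h2 : ∑ _x ∈ s, η / Fintype.card X ≤ η := by
    rw [sum_const, nsmul_eq_mul, mul_div_assoc', div_le_iff₀ hc0, mul_comm]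
    exact mul_le_mul_of_nonneg_left (by exact_mod_cast card_le_univ s) hη.le
  linarith

theorem gapB : GapB := by
  intro p _ hp δ hδ
  classical
  obtain ⟨k, hk0, hk1, hk⟩ := GapB_k (univ.filter fun a : ZMod p => a ≠ 0)
    (fun a => (ZMod.stdAddChar a : ℂ).re) (fun a ha => GapB_lt p a (by simpa using ha))
  have hk' : ∀ a : ZMod p, a ≠ 0 → (ZMod.stdAddChar a : ℂ).re ≤ k := fun a ha =>
    hk a (by simpa using ha)
  have hc1 : (1 : ℝ) ≤ Fintype.card (ZMod p × ZMod p) := by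
    exact_mod_cast Fintype.card_pos
  have hη : 0 < min δ 1 := lt_min hδ one_pos
  set m : ℝ := min δ 1 / Fintype.card (ZMod p × ZMod p) with hm
  have hm0 : 0 < m := div_pos hη (by linarith)
  have hm1 : m ≤ 1 := by
    rw [hm, div_le_one (by linarith)]
    exact le_trans (min_le_right _ _) hc1
  have hm4 : m ^ 4 ≤ 1 := pow_le_one₀ hm0.le hm1
  have hm5 : 0 < m ^ 4 := by positivity
  refine ⟨1 - (1 - k) * m ^ 4, by nlinarith, by nlinarith, ?_⟩
  intro ν h0 h1 hr hc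
  obtain ⟨x1, -, hx1⟩ := GapB_pick ν univ _ hη (by rw [h1]; exact min_le_right _ _)
  have hrow : δ ≤ ∑ x ∈ univ.filter (fun x : ZMod p × ZMod p => ¬ x.1 = x1.1), ν x := by
    have a1 := sum_filter_add_sum_filter_not univ (fun x : ZMod p × ZMod p => x.1 = x1.1) ν
    have a2 : ∑ x ∈ univ.filter (fun x : ZMod p × ZMod p => x.1 = x1.1), ν x =
        ∑ s, ν (x1.1, s) := by
      rw [sum_filter, Fintype.sum_prod_type, sum_comm]
      simp
    have := hr x1.1
    linarith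
  have hcol : δ ≤ ∑ x ∈ univ.filter (fun x : ZMod p × ZMod p => ¬ x.2 = x1.2), ν x := by
    have a1 := sum_filter_add_sum_filter_not univ (fun x : ZMod p × ZMod p => x.2 = x1.2) ν
    have a2 : ∑ x ∈ univ.filter (fun x : ZMod p × ZMod p => x.2 = x1.2), ν x =
        ∑ a, ν (a, x1.2) := by
      rw [sum_filter, Fintype.sum_prod_type]
      simp
    have := hc x1.2
    linarith
  obtain ⟨x2, hx2s, hx2⟩ := GapB_pick ν _ _ hη (le_trans (min_le_left _ _) hrow)
  obtain ⟨x3, hx3s, hx3⟩ := GapB_pick ν _ _ hη (le_trans (min_le_left _ _) hcol)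
  have n2 : x2.1 - x1.1 ≠ 0 := sub_ne_zero.2 (by simpa using hx2s)
  have n3 : x3.2 - x1.2 ≠ 0 := sub_ne_zero.2 (by simpa using hx3s)
  have two : (2 : ZMod p) ≠ 0 := by
    intro h
    have h' : ((2 : ℕ) : ZMod p) = 0 := by exact_mod_cast h
    rw [ZMod.natCast_eq_zero_iff] at h'
    have := Nat.le_of_dvd two_pos h'
    omega
  have key : ∀ a c : ZMod p × ZMod p, m ≤ ν a → m ≤ ν c →
      (a - x1).2 * (c - x1).1 + (c - x1).2 * (a - x1).1 ≠ 0 →
      ∑ x, ∑ x', ∑ y, ∑ y', ν x * ν x' * ν y * ν y' * (Kp p (x - x') (y - y')).re ≤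
        1 - (1 - k) * m ^ 4 := by
    intro a c ha hc' hne
    refine GapB_abs ν (fun x x' y y' => (Kp p (x - x') (y - y')).re) h0 h1
      (fun _ _ _ _ => GapB_re p _) a x1 c x1 k (m ^ 4) (hk' _ hne) hk1.le ?_
    have : m ^ 4 = m * m * m * m := by ring
    rw [this]
    exact mul_le_mul (mul_le_mul (mul_le_mul ha hx1 hm0.le (h0 _)) hc' hm0.le
      (mul_nonneg (h0 _) (h0 _))) hx1 hm0.le (mul_nonneg (mul_nonneg (h0 _) (h0 _)) (h0 _))
  by_cases c2 : x2.2 - x1.2 = 0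
  · by_cases c3 : x3.1 - x1.1 = 0
    · refine key x2 x3 hx2 hx3 ?_
      simp only [Prod.fst_sub, Prod.snd_sub, c2, zero_mul, zero_add]
      exact mul_ne_zero n3 n2
    · refine key x3 x3 hx3 hx3 ?_
      simp only [Prod.fst_sub, Prod.snd_sub, ← two_mul]
      exact mul_ne_zero two (mul_ne_zero n3 c3)
  · refine key x2 x2 hx2 hx2 ?_
    simp only [Prod.fst_sub, Prod.snd_sub, ← two_mul]
    exact mul_ne_zero two (mul_ne_zero c2 n2)

end Vale.Agent.P156
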