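import Vale.Agent.P156.Stm

namespace Vale.Agent.P156

open Finset Polynomial

theorem haf (h1 : Orb) (h2 : Exq) (h3 : Cof) (h4 : Sti) : Haf := by
  intro M X _ _ K g0 r ρ hr hz
  have a1 := h1 ℂ (Pos M) X g0 (W K)
  have a3 : (∏ x, r x ^ cnt g0 x) * ‖∑ g ∈ Ty (α := Pos M) (cnt g0), W K g‖ ≤ ρ ^ M :=
    h3 (Pos M → X) X (W K) cnt (cnt g0) r (ρ ^ M) hr fun z h => by
      rw [← h2 M X K z, norm_pow]
      exact pow_le_pow_left₀ (norm_nonneg _) (hz z h) M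
  have a4 := h4 X (cnt g0) (2 * M) (by rw [sum_cnt, card_pos'])
  have h0 : 0 ≤ (∏ x, r x ^ cnt g0 x) * ‖∑ g ∈ Ty (α := Pos M) (cnt g0), W K g‖ :=
    mul_nonneg (Finset.prod_nonneg fun x _ => pow_nonneg (hr x) _) (norm_nonneg _)
  rw [a1, norm_mul, Complex.norm_natCast, mul_left_comm]
  exact mul_le_mul a4 a3 h0 ((Nat.cast_nonneg _).trans a4)

end Vale.Agent.P156
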