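import Vale.Agent.P156.Stm

namespace Vale.Agent.P156

open Finset Polynomial

theorem Hit_fix {α ι : Type} [Fintype α] [DecidableEq α] [Fintype ι] (x : ι → α)
    (hx : Function.Injective x) (S : Finset (Equiv.Perm α))
    (hS : ∀ σ ∈ S, ∀ τ ∈ S, ∀ i, σ (x i) = τ (x i)) :
    S.card ≤ (Fintype.card α - Fintype.card ι).factorial := by
  classical
  rcases S.eq_empty_or_nonempty with h | ⟨s0, hs0⟩
  · simp [h]
  have hc : Fintype.card {y : α // y ∉ Set.range x} = Fintype.card α - Fintype.card ι := by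
    rw [Fintype.card_subtype_compl, ← Set.card_range_of_injective hx]
  rw [← hc, ← Fintype.card_perm, ← Finset.card_univ]
  have key : ∀ σ ∈ S, ∀ a : α, ¬ (a ∉ Set.range x) → (s0⁻¹ * σ) a = a := by
    intro σ hσ a ha
    obtain ⟨i, rfl⟩ := not_not.mp ha
    rw [Equiv.Perm.mul_apply, hS σ hσ s0 hs0 i]
    simp
  let e := Equiv.Perm.subtypeEquivSubtypePerm (fun y : α => y ∉ Set.range x)
  let f : Equiv.Perm α → Equiv.Perm {y : α // y ∉ Set.range x} := fun σ =>
    if h : σ ∈ S then e.symm ⟨s0⁻¹ * σ, key σ h⟩ else 1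
  refine Finset.card_le_card_of_injOn f (fun _ _ => Finset.mem_coe.mpr (Finset.mem_univ _)) ?_
  intro σ hσ τ hτ h
  have hσ' : σ ∈ S := Finset.mem_coe.mp hσ
  have hτ' : τ ∈ S := Finset.mem_coe.mp hτ
  simp only [f, dif_pos hσ', dif_pos hτ'] at h
  have h2 := e.symm.injective h
  have h3 : s0⁻¹ * σ = s0⁻¹ * τ := congrArg Subtype.val h2
  exact mul_left_cancel h3

theorem hit : Hit := by
  intro α ι _ _ _ x B hx
  classical
  have h := Finset.card_le_mul_card_image_of_maps_to (s := hitS x B) (t := Fintype.piFinset B)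
    (f := fun σ : Equiv.Perm α => fun i => σ (x i)) ?_
    ((Fintype.card α - Fintype.card ι).factorial) ?_
  · rw [Fintype.card_piFinset] at h
    rw [mul_comm]
    exact h
  · intro σ hσ
    rw [Fintype.mem_piFinset]
    simpa [hitS] using hσ
  · intro b _
    apply Hit_fix x hx
    intro σ hσ τ hτ i
    have h1 := (Finset.mem_filter.mp hσ).2
    have h2 := (Finset.mem_filter.mp hτ).2
    exact (congrFun h1 i).trans (congrFun h2 i).symm

end Vale.Agent.P156
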