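import Vale.Agent.P156.Stm

namespace Vale.Agent.P156

open Finset Polynomial

theorem itp : Itp := by
  intro a y ρ d n M ha hy hρ hd hM h1 h2
  obtain ⟨e, rfl⟩ := Nat.exists_eq_add_of_le hd
  have hn : n ≤ M := by nlinarith [Nat.zero_le (n * e)]
  obtain ⟨k, rfl⟩ := Nat.exists_eq_add_of_le hn
  rw [Nat.add_sub_cancel_left]
  have hk : n * e = k * 2 := by nlinarith
  rcases le_total (ρ ^ n) y with h | h
  · rw [pow_add, mul_comm] at h1
    exact h1.trans (mul_le_mul_of_nonneg_left h (pow_nonneg hρ _))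
  · refine (pow_le_pow_iff_left₀ ha (by positivity) two_ne_zero).1 (h2.trans ?_)
    rw [pow_add, mul_pow, mul_comm, ← pow_mul, ← hk, pow_mul]
    exact mul_le_mul_of_nonneg_right (pow_le_pow_left₀ hy h e) (sq_nonneg y)

end Vale.Agent.P156
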