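import Vale.Agent.P156.Stm

namespace Vale.Agent.P156

open Finset Polynomial

theorem Ker_smul {p n M : ℕ} {e : ZMod p} {τ : Pos M → Fin n} {v : Fin n → ZMod p}
    (h : Sol e τ v) (c : ZMod p) : Sol e τ (fun u => c * v u) := by
  intro u
  rw [← mul_sum, h u]
  ring

open Classical in
theorem Ker_card {p : ℕ} [Fact p.Prime] {n M : ℕ} {e : ZMod p} {τ : Pos M → Fin n}
    {v : Fin n → ZMod p} (hv : v ≠ 0) (h : Sol e τ v) :
    p ≤ (univ.filter fun w : Fin n → ZMod p => Sol e τ w).card := by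
  obtain ⟨u, hu⟩ := Function.ne_iff.1 hv
  have h1 : (univ : Finset (ZMod p)).card ≤
      (univ.filter fun w : Fin n → ZMod p => Sol e τ w).card := by
    refine card_le_card_of_injOn (fun c u => c * v u) (fun c _ => ?_) fun c _ c' _ hc => ?_
    · exact mem_coe.2 (mem_filter.2 ⟨mem_univ _, Ker_smul h c⟩)
    · exact mul_right_cancel₀ hu (congrFun hc u)
  rwa [card_univ, ZMod.card] at h1

theorem ker : Ker := by
  classical
  intro p _ n M t e
  have e1 : ∑ v : Fin n → ZMod p, nP t (fun τ => Sol e τ v) =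
      ∑ σ : Equiv.Perm (Pos M), (univ.filter fun w : Fin n → ZMod p => Sol e (t ∘ σ) w).card := by
    have e2 : ∀ v : Fin n → ZMod p, nP t (fun τ => Sol e τ v) =
        ∑ σ : Equiv.Perm (Pos M), if Sol e (t ∘ σ) v then 1 else 0 := by
      intro v
      rw [← card_filter]
      refine congrArg Finset.card ?_
      ext σ
      rw [mem_sP, mem_filter]
      exact ⟨fun h => ⟨mem_univ _, h⟩, fun h => h.2⟩
    simp only [e2]
    rw [sum_comm]
    exact sum_congr rfl fun σ _ => (card_filter _ _).symm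
  rw [e1, nP, mul_comm, ← smul_eq_mul, ← sum_const]
  refine (sum_le_sum fun σ hσ => ?_).trans (sum_le_sum_of_subset (subset_univ _))
  obtain ⟨v, hv, h⟩ := (mem_sP _ _ _).1 hσ
  exact Ker_card hv h

end Vale.Agent.P156
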