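import Vale.Agent.P156.Stm

namespace Vale.Agent.P156

open Finset Polynomial

theorem Mom_sum (h1 : Fou) (p : ℕ) [Fact p.Prime] {M n : ℕ} (e : ZMod p) (t : Pos M → Fin n)
    (v : Fin n → ZMod p) :
    ∑ w, Phb e t v w = (((p : ℝ) ^ n * (nP t (fun τ => Sol e τ v) : ℝ) : ℝ) : ℂ) := by
  classical
  unfold Phb
  rw [sum_comm, ← sum_subset (subset_univ (sP t fun τ => Sol e τ v))
    (fun σ _ hσ => (h1 p M n e (t ∘ σ) v).2.1 fun k => hσ ((mem_sP _ _ _).2 k)),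
    sum_congr rfl fun (σ : Equiv.Perm (Pos M)) (hσ : σ ∈ sP t fun τ => Sol e τ v) =>
      (h1 p M n e (t ∘ σ) v).1 ((mem_sP t (fun τ => Sol e τ v) σ).1 hσ), sum_const,
    nsmul_eq_mul, nP, Complex.ofReal_mul, Complex.ofReal_pow, Complex.ofReal_natCast,
    Complex.ofReal_natCast, mul_comm]

theorem Mom_norm (h1 : Fou) (p : ℕ) [Fact p.Prime] {M n : ℕ} (e : ZMod p) (t : Pos M → Fin n)
    (v w : Fin n → ZMod p) : ‖Phb e t v w‖ ≤ ((2 * M).factorial : ℝ) := by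
  refine (norm_sum_le _ _).trans (le_of_eq ?_)
  rw [sum_congr rfl fun (σ : Equiv.Perm (Pos M)) _ => (h1 p M n e (t ∘ σ) v).2.2.2 w, sum_const,
    card_univ, card_perm', nsmul_eq_mul, mul_one]

theorem mom (h1 : Fou) (h2 : Spl) (h3 : Ncs) (h4 : Blk) (h5 : Ncm) : Mom := by
  classical
  intro p _ hp d hd
  obtain ⟨δ0, hδ0, k3⟩ := h3 p hp
  obtain ⟨δ2, hδ2, k5⟩ := h5 p d hd
  have hδ : 0 < min δ0 δ2 := lt_min hδ0 hδ2
  obtain ⟨n4, k4⟩ := h4 p hp d hd (min δ0 δ2) (1 / 5) hδ (by norm_num)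
  obtain ⟨n5, k5⟩ := k5 (min δ0 δ2) hδ (min_le_right _ _) (1 / 5) (by norm_num)
  have ht : Filter.Tendsto (fun n : ℕ => (p : ℝ) ^ 2 * (1 / 2) ^ n) Filter.atTop (nhds 0) := by
    have := (tendsto_pow_atTop_nhds_zero_of_lt_one (r := (1 / 2 : ℝ)) (by norm_num)
      (by norm_num)).const_mul ((p : ℝ) ^ 2)
    rwa [mul_zero] at this
  obtain ⟨n6, k6⟩ := Filter.eventually_atTop.1
    (ht.eventually (Iic_mem_nhds (show (0 : ℝ) < 2 / 5 by norm_num)))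
  refine ⟨max n4 (max n5 n6), fun n hn M t e hM hF he => ?_⟩
  have hQ : (0 : ℝ) < (p : ℝ) ^ n := pow_pos (by exact_mod_cast (by omega : 0 < p)) n
  have hB : (0 : ℝ) ≤ ((2 * M).factorial : ℝ) := Nat.cast_nonneg _
  have a1 := h2 (Fin n → ZMod p) (NC n p (min δ0 δ2)) (Phb e t)
    (fun v => (nP t (fun τ => Sol e τ v) : ℝ)) ((p : ℝ) ^ n) ((2 * M).factorial : ℝ)
    (Mom_sum h1 p e t)
    (fun v w => sum_congr rfl fun σ _ => (h1 p M n e (t ∘ σ) v).2.2.1 w) (Mom_norm h1 p e t)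
  have a2 := k4 n ((le_max_left _ _).trans hn) M t e hM hF
  have a3 := mul_le_mul_of_nonneg_left
    (k5 n ((le_max_left _ _).trans ((le_max_right _ _).trans hn)) M t e hM hF he) hQ.le
  have a4 : (p : ℝ) ^ 2 * (1 / 2) ^ n ≤ 2 / 5 :=
    k6 n ((le_max_right _ _).trans ((le_max_right _ _).trans hn))
  have a5 := mul_le_mul_of_nonneg_left ((k3 _ hδ (min_le_left _ _) n).trans
    (mul_le_mul_of_nonneg_right a4 hQ.le)) hB
  refine le_of_mul_le_mul_left ?_ hQ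
  linarith

end Vale.Agent.P156
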