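import Vale.Agent.P156.Stm

namespace Vale.Agent.P156

open Finset Polynomial

theorem Ncm_zero (h1 : Det) {p : ℕ} [Fact p.Prime] {d n M : ℕ} {t : Pos M → Fin n}
    {e c : ZMod p} {v : Fin n → ZMod p} {δ : ℝ} (ht : Fib d t) (he : e ≠ (d : ZMod p))
    (hc : c ≠ 0) (hδ : ((d : ℝ) + 1) * δ ≤ 1) (hv : (1 - δ) * n < cnt v c) :
    nP t (fun τ => Sol e τ v) = 0 := by
  unfold nP
  rw [card_eq_zero, eq_empty_iff_forall_notMem]
  intro σ hσ
  rw [mem_sP] at hσ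
  have h2 := h1 p d n M _ e c v (ht.perm σ) hσ he hc
  have h3 : cnt v c ≤ n := by simpa using cnt_le v c
  have h4 : (cnt v c : ℝ) ≤ d * ((n : ℝ) - cnt v c) := by
    rw [← Nat.cast_sub h3]
    exact_mod_cast h2
  have h5 : (0 : ℝ) ≤ n := Nat.cast_nonneg n
  have h6 : (0 : ℝ) < (d : ℝ) + 1 := by positivity
  have h7 := mul_lt_mul_of_pos_left hv h6
  nlinarith [mul_le_mul_of_nonneg_right hδ h5]

theorem ncm (h1 : Det) (h2 : Sm) (h3 : Spa) : Ncm := by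
  classical
  intro p _ d hd
  obtain ⟨δ1, hδ1, h2⟩ := h2 d p hd
  refine ⟨min (1 / ((d : ℝ) + 1)) (δ1 / ((d : ℝ) + 2)), by positivity, fun δ hδ0 hδ ε hε => ?_⟩
  obtain ⟨n0, h2⟩ := h2 ε hε
  refine ⟨n0, fun n hn M t e hM ht he => ?_⟩
  have ha : ((d : ℝ) + 1) * δ ≤ 1 := by
    have := hδ.trans (min_le_left _ _)
    rw [le_div_iff₀ (by positivity)] at this
    linarith
  have hb : ((d : ℝ) + 2) * δ ≤ δ1 := by
    have := hδ.trans (min_le_right _ _)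
    rw [le_div_iff₀ (by positivity)] at this
    linarith
  have hn0 : (0 : ℝ) ≤ n := Nat.cast_nonneg n
  let S : Finset (Fin n → ZMod p) := univ.filter fun v => v ≠ 0 ∧ (1 - δ) * n < cnt v 0
  have hS := h3 p d n M ⌊δ1 * n⌋₊ t e S hd ht fun v hv => by
    obtain ⟨h4, h5⟩ := (mem_filter.1 hv).2
    refine ⟨h4, le_trans (Nat.le_floor ?_) (Nat.le_mul_of_pos_left _ two_pos)⟩
    have h6 : cnt v 0 ≤ n := by simpa using cnt_le v 0
    rw [Nat.cast_mul, Nat.cast_sub h6]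
    push_cast
    have h7 : (0 : ℝ) ≤ (d : ℝ) + 2 := by positivity
    have h8 : (n : ℝ) - cnt v 0 ≤ δ * n := by linarith
    nlinarith [mul_le_mul_of_nonneg_left h8 h7, mul_le_mul_of_nonneg_right hb hn0]
  have hT := h2 n hn M hM (Icc 1 ⌊δ1 * n⌋₊) fun u hu => by
    obtain ⟨h4, h5⟩ := mem_Icc.1 hu
    exact ⟨h4, (Nat.le_floor_iff (by positivity)).1 h5⟩
  have hS' : ∑ v ∈ S, (nP t (fun τ => Sol e τ v) : ℝ) ≤
      ∑ u ∈ Icc 1 ⌊δ1 * n⌋₊, (trm d p n M u : ℝ) := by exact_mod_cast hS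
  have h0 : (nP t (fun τ => Sol e τ (0 : Fin n → ZMod p)) : ℝ) ≤ ((2 * M).factorial : ℝ) := by
    exact_mod_cast nP_le t _
  have hsub : ∑ v ∈ NC n p δ, (nP t (fun τ => Sol e τ v) : ℝ) ≤
      ∑ v ∈ insert 0 S, (nP t (fun τ => Sol e τ v) : ℝ) := by
    rw [← Nat.cast_sum, ← Nat.cast_sum, Nat.cast_le]
    refine sum_le_sum_of_ne_zero fun v hv hne => ?_
    obtain ⟨c, hc⟩ := (mem_NC p δ v).1 hv
    by_cases hc0 : c = 0
    · by_cases hv0 : v = 0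
      · exact mem_insert.2 (Or.inl hv0)
      · exact mem_insert.2 (Or.inr (mem_filter.2 ⟨mem_univ _, hv0, hc0 ▸ hc⟩))
    · exact absurd (Ncm_zero h1 ht he hc0 ha hc) hne
  rw [sum_insert (by simp [S])] at hsub
  linarith

end Vale.Agent.P156
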