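import Vale.Agent.P156.Stm

namespace Vale.Agent.P156

open Finset Polynomial

theorem Ncs_sum (p : ℕ) [Fact p.Prime] (n : ℕ) (c : ZMod p) (lam : ℝ) (h0 : 0 ≤ lam)
    (h1 : (p : ℝ) * lam ≤ 1 / 10) :
    ∑ v : Fin n → ZMod p, ∏ u, (if v u = c then (1 : ℝ) else lam) ≤ (11 / 10) ^ n := by
  rw [← Fintype.sum_pow (fun a : ZMod p => if a = c then (1 : ℝ) else lam) n]
  apply pow_le_pow_left₀
  · exact sum_nonneg fun a _ => by split_ifs <;> linarith
  · calc ∑ a : ZMod p, (if a = c then (1 : ℝ) else lam)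
        ≤ ∑ a : ZMod p, ((if a = c then (1 : ℝ) else 0) + lam) :=
          sum_le_sum fun a _ => by split_ifs <;> linarith
      _ = 1 + (p : ℝ) * lam := by
          rw [sum_add_distrib, sum_ite_eq', if_pos (mem_univ _), sum_const, card_univ, ZMod.card,
            nsmul_eq_mul]
      _ ≤ 11 / 10 := by linarith

theorem Ncs_prod (p : ℕ) [Fact p.Prime] (n : ℕ) (c : ZMod p) (δ : ℝ)
    (hδ : δ * Real.log (10 * p) ≤ Real.log (11 / 10)) (v : Fin n → ZMod p)
    (hv : (1 - δ) * n < cnt v c) :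
    ((10 : ℝ) / 11) ^ n ≤ ∏ u, (if v u = c then (1 : ℝ) else 1 / (10 * p)) := by
  have hp : (1 : ℝ) ≤ p := by exact_mod_cast (Fact.out : p.Prime).one_le
  rw [prod_ite, prod_const_one, one_mul, prod_const]
  have hk : cnt v c + (univ.filter fun u => ¬v u = c).card = n := by
    unfold cnt
    rw [Finset.card_filter_add_card_filter_not, card_univ, Fintype.card_fin]
  generalize (univ.filter fun u => ¬v u = c).card = k at hk
  have hk' : (cnt v c : ℝ) + k = n := by exact_mod_cast hk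
  have hkδ : (k : ℝ) ≤ δ * n := by linarith
  have hL : 0 ≤ Real.log (10 * p) := Real.log_nonneg (by linarith)
  have hn : (0 : ℝ) ≤ n := Nat.cast_nonneg n
  have h3 : (k : ℝ) * Real.log (10 * p) ≤ n * Real.log (11 / 10) := by
    calc (k : ℝ) * Real.log (10 * p) ≤ δ * n * Real.log (10 * p) :=
          mul_le_mul_of_nonneg_right hkδ hL
      _ = n * (δ * Real.log (10 * p)) := by ring
      _ ≤ n * Real.log (11 / 10) := mul_le_mul_of_nonneg_left hδ hn
  have h4 : ((10 : ℝ) * p) ^ k ≤ (11 / 10) ^ n := by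
    rw [← Real.log_le_log_iff (by positivity) (by positivity), Real.log_pow, Real.log_pow]
    exact h3
  have e : ((10 : ℝ) / 11) ^ n = 1 / (11 / 10) ^ n := by
    rw [← one_div_pow]; norm_num
  rw [e, one_div_pow]
  exact one_div_le_one_div_of_le (by positivity) h4

open Classical in
theorem Ncs_cls (p : ℕ) [Fact p.Prime] (n : ℕ) (c : ZMod p) (δ : ℝ)
    (hδ : δ * Real.log (10 * p) ≤ Real.log (11 / 10)) :
    ((univ.filter fun v : Fin n → ZMod p => (1 - δ) * n < cnt v c).card : ℝ)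
      ≤ (121 / 100) ^ n := by
  have hp : (1 : ℝ) ≤ p := by exact_mod_cast (Fact.out : p.Prime).one_le
  have h0 : (0 : ℝ) ≤ 1 / (10 * p) := by positivity
  have h1 := Ncs_sum p n c (1 / (10 * p)) h0 (by
    apply le_of_eq
    field_simp)
  have h2 : ((univ.filter fun v : Fin n → ZMod p => (1 - δ) * n < cnt v c).card : ℝ)
      * (10 / 11) ^ n ≤ (11 / 10) ^ n := by
    refine le_trans ?_ h1
    rw [← nsmul_eq_mul, ← sum_const]
    refine (sum_le_sum fun v hv => Ncs_prod p n c δ hδ v (mem_filter.mp hv).2).trans ?_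
    refine sum_le_sum_of_subset_of_nonneg (subset_univ _) fun v _ _ => ?_
    exact prod_nonneg fun u _ => by split_ifs <;> linarith
  have e : ((121 : ℝ) / 100) ^ n * (10 / 11) ^ n = (11 / 10) ^ n := by
    rw [← mul_pow]; norm_num
  rw [← e] at h2
  exact le_of_mul_le_mul_right h2 (by positivity)

theorem ncs : Ncs := by
  classical
  intro p _ hp
  have hp3 : (3 : ℝ) ≤ p := by exact_mod_cast hp
  have hL : 0 < Real.log (10 * p) := Real.log_pos (by linarith)
  refine ⟨Real.log (11 / 10) / Real.log (10 * p), div_pos (Real.log_pos (by norm_num)) hL,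
    fun δ _ hδ n => ?_⟩
  have hδ' : δ * Real.log (10 * p) ≤ Real.log (11 / 10) := (le_div_iff₀ hL).mp hδ
  have hsub : NC n p δ ⊆ (univ : Finset (ZMod p)).biUnion fun c =>
      univ.filter fun v : Fin n → ZMod p => (1 - δ) * n < cnt v c := by
    intro v hv
    obtain ⟨c, hc⟩ := (mem_NC p δ v).mp hv
    exact mem_biUnion.mpr ⟨c, mem_univ _, mem_filter.mpr ⟨mem_univ _, hc⟩⟩
  have h1 : ((NC n p δ).card : ℝ) ≤ p * (121 / 100) ^ n := by
    have h2 := (card_le_card hsub).trans card_biUnion_le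
    have h3 : ((NC n p δ).card : ℝ) ≤ ∑ c : ZMod p,
        ((univ.filter fun v : Fin n → ZMod p => (1 - δ) * n < cnt v c).card : ℝ) := by
      exact_mod_cast h2
    refine h3.trans ((sum_le_sum fun c _ => Ncs_cls p n c δ hδ').trans ?_)
    rw [sum_const, card_univ, ZMod.card, nsmul_eq_mul]
  calc ((NC n p δ).card : ℝ) ^ 2 ≤ (p * (121 / 100) ^ n) ^ 2 :=
        pow_le_pow_left₀ (Nat.cast_nonneg _) h1 2
    _ = (p : ℝ) ^ 2 * ((121 / 100) ^ 2) ^ n := by
        rw [mul_pow, ← pow_mul, ← pow_mul, mul_comm n 2]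
    _ ≤ (p : ℝ) ^ 2 * (1 / 2 * p) ^ n := by
        apply mul_le_mul_of_nonneg_left _ (by positivity)
        apply pow_le_pow_left₀ (by positivity)
        linarith
    _ = (p : ℝ) ^ 2 * (1 / 2) ^ n * (p : ℝ) ^ n := by rw [mul_pow, mul_assoc]

end Vale.Agent.P156
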