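import Vale.Agent.P156.Stm

namespace Vale.Agent.P156

open Finset Polynomial

theorem Opn_orth (p : ℕ) [Fact p.Prime] (u : ZMod p × ZMod p) :
    ∑ x, Kp p x u = if u = 0 then (p : ℂ) ^ 2 else 0 := by
  have h1 : ∑ x, Kp p x u = (∑ a : ZMod p, ZMod.stdAddChar (a * u.2)) *
      ∑ s : ZMod p, ZMod.stdAddChar (s * u.1) := by
    rw [Fintype.sum_prod_type, Finset.sum_mul_sum]
    refine Finset.sum_congr rfl fun a _ => Finset.sum_congr rfl fun s _ => ?_
    rw [Kp, ← AddChar.map_add_eq_mul, add_comm, mul_comm u.2 a]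
  rw [h1, AddChar.sum_mulShift _ (ZMod.isPrimitive_stdAddChar p),
    AddChar.sum_mulShift _ (ZMod.isPrimitive_stdAddChar p), ZMod.card]
  obtain ⟨b, t⟩ := u
  by_cases hb : b = 0 <;> by_cases ht : t = 0 <;> simp [hb, ht, pow_two]

theorem Opn_conj (p : ℕ) [Fact p.Prime] (x y y' : ZMod p × ZMod p) :
    Kp p x y * (starRingEnd ℂ) (Kp p x y') = Kp p x (y - y') := by
  rw [Kp, Kp, Kp, ← AddChar.map_neg_eq_conj, ← AddChar.map_add_eq_mul]
  refine congrArg _ ?_
  simp only [Prod.fst_sub, Prod.snd_sub]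
  ring

theorem Opn_pars (p : ℕ) [Fact p.Prime] (z : ZMod p × ZMod p → ℂ) :
    ∑ x, ‖∑ y, z y * Kp p x y‖ ^ 2 = (p : ℝ) ^ 2 * ∑ x, ‖z x‖ ^ 2 := by
  have h0 : ∀ w : ℂ, ((‖w‖ : ℝ) : ℂ) ^ 2 = w * (starRingEnd ℂ) w := fun w => by
    rw [Complex.mul_conj, Complex.normSq_eq_norm_sq, Complex.ofReal_pow]
  refine Complex.ofReal_injective ?_
  push_cast
  simp only [h0]
  have h1 : ∀ x, (∑ y, z y * Kp p x y) * (starRingEnd ℂ) (∑ y, z y * Kp p x y) =
      ∑ y, ∑ y', z y * (starRingEnd ℂ) (z y') * Kp p x (y - y') := fun x => by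
    rw [map_sum, Finset.sum_mul_sum]
    refine Finset.sum_congr rfl fun y _ => Finset.sum_congr rfl fun y' _ => ?_
    rw [map_mul, ← Opn_conj]
    ring
  rw [Finset.sum_congr rfl fun x _ => h1 x, Finset.sum_comm, Finset.mul_sum]
  refine Finset.sum_congr rfl fun y _ => ?_
  rw [Finset.sum_comm, Finset.sum_eq_single y]
  · rw [← Finset.mul_sum, Opn_orth, if_pos (sub_self y), mul_comm]
  · intro y' _ hne
    rw [← Finset.mul_sum, Opn_orth, if_neg (sub_ne_zero.2 hne.symm), mul_zero]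
  · intro h
    exact absurd (Finset.mem_univ y) h

theorem opn : Opn := by
  intro p _ z
  have h1 : ‖Qf (Kp p) z‖ ≤ ∑ x, ‖z x‖ * ‖∑ y, z y * Kp p x y‖ := by
    refine (norm_sum_le _ _).trans (Finset.sum_le_sum fun x _ => le_of_eq ?_)
    rw [← norm_mul, Finset.mul_sum]
    exact congrArg _ (Finset.sum_congr rfl fun y _ => mul_assoc _ _ _)
  have h2 := Finset.sum_mul_sq_le_sq_mul_sq univ (fun x => ‖z x‖)
    fun x => ‖∑ y, z y * Kp p x y‖
  rw [Opn_pars] at h2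
  refine h1.trans (le_of_pow_le_pow_left₀ two_ne_zero (by positivity) ?_)
  exact h2.trans (le_of_eq (by ring))

end Vale.Agent.P156
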