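import Vale.Agent.P156.Stm

namespace Vale.Agent.P156

open Finset Polynomial

theorem Orb_ex {α X : Type} [Fintype α] [DecidableEq X] (g0 g : α → X)
    (h : ∀ x, cnt g x = cnt g0 x) : ∃ s : Equiv.Perm α, g0 ∘ s = g := by
  have e : ∀ x, {a // g a = x} ≃ {a // g0 a = x} := fun x => Fintype.equivOfCardEq (by
    rw [Fintype.card_subtype, Fintype.card_subtype]; exact h x)
  exact ⟨Equiv.ofFiberEquiv e, funext fun a => Equiv.ofFiberEquiv_map e a⟩

theorem Orb_card {α X : Type} [Fintype α] [DecidableEq α] [Fintype X] [DecidableEq X]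
    (g0 g : α → X) (h : ∀ x, cnt g x = cnt g0 x) :
    (univ.filter fun σ : Equiv.Perm α => g0 ∘ σ = g).card = ∏ x, (cnt g0 x).factorial := by
  obtain ⟨s, hs⟩ := Orb_ex g0 g h
  have h1 : (univ.filter fun σ : Equiv.Perm α => g0 ∘ σ = g0).card =
      (univ.filter fun σ : Equiv.Perm α => g0 ∘ σ = g).card := by
    refine Finset.card_bijective (fun σ => σ * s) (Equiv.mulRight s).bijective (fun σ => ?_)
    simp only [mem_filter, mem_univ, true_and]
    rw [← hs, Equiv.Perm.coe_mul, ← Function.comp_assoc]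
    exact (s.surjective.right_cancellable).symm
  rw [← h1, ← Fintype.card_subtype, DomMulAct.stabilizer_card]
  refine Finset.prod_congr rfl (fun x _ => ?_)
  rw [Fintype.card_subtype]
  rfl

theorem orb : Orb := by
  intro R α X _ _ _ _ _ g0 F
  rw [← Finset.sum_fiberwise_of_maps_to (s := univ) (t := Ty (cnt g0))
    (g := fun σ : Equiv.Perm α => g0 ∘ σ) (fun σ _ => (mem_Ty _ _).mpr (cnt_perm g0 σ)),
    Finset.mul_sum]
  refine Finset.sum_congr rfl (fun g hg => ?_)
  rw [← Orb_card g0 g ((mem_Ty _ _).mp hg), ← nsmul_eq_mul, ← Finset.sum_const]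
  exact Finset.sum_congr rfl (fun σ hσ => congrArg F (mem_filter.mp hσ).2)

end Vale.Agent.P156
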