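import Vale.Agent.P156.Stm

namespace Vale.Agent.P156

open Finset Polynomial

theorem PartA_eval {E : ℝ} (hE : IsIntegral ℤ E) {a : ℤ} (h : E ≠ a) :
    (minpoly ℤ E).eval a ≠ 0 := by
  intro h0
  obtain ⟨g, hg⟩ : X - C a ∣ minpoly ℤ E := dvd_iff_isRoot.2 h0
  have hm : (minpoly ℤ E).Monic := minpoly.monic hE
  have hgm : g.Monic := Monic.of_mul_monic_left (monic_X_sub_C a) (hg ▸ hm)
  have h1 : aeval E g = 0 := by
    have h2 := minpoly.aeval ℤ E
    rw [hg, map_mul] at h2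
    rcases mul_eq_zero.1 h2 with h3 | h3
    · exfalso
      apply h
      simp only [map_sub, aeval_X, eq_intCast] at h3
      simpa [sub_eq_zero] using h3
    · exact h3
  have h4 := natDegree_le_natDegree (minpoly.min ℤ E hgm h1)
  rw [hg, (monic_X_sub_C a).natDegree_mul hgm, natDegree_X_sub_C] at h4
  omega

theorem PartA_base (h3 : Smp) (h4 : Trf) (h9 : Ext) (d : ℕ) (hd : 3 ≤ d) :
    ∃ c : ℝ, 0 < c ∧ ∃ M0 : ℕ, ∀ n : ℕ, M0 ≤ n → Even (n * d) →
      ∃ (M : ℕ) (t : Pos M → Fin n), 2 * M = n * d ∧ Fib d t ∧ (Reg n d).Nonempty ∧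
        ∀ (P : SimpleGraph (Fin n) → Prop) (ε : ℝ),
          (nP t (fun τ => Simp τ ∧ P (Gr τ)) : ℝ) ≤ ε * (c * ((2 * M).factorial : ℝ)) →
          0 ≤ ε → prob n d P ≤ ε := by
  obtain ⟨c, hc, M0, hS⟩ := h3 d
  refine ⟨c, hc, M0, fun n hn hev => ?_⟩
  obtain ⟨M, hM⟩ := hev
  have hM2 : 2 * M = n * d := by omega
  obtain ⟨t, ht⟩ := h9 d n M hM2
  have hM0 : M0 ≤ M := by nlinarith
  have h1 := hS n M t hM0 hM2 ht
  obtain ⟨F, hF, hT⟩ := h4 d n M t hM2 ht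
  have h2 := hT (fun _ => True)
  have h5 : ({G ∈ Reg n d | True} : Set (SimpleGraph (Fin n))) = Reg n d := by ext G; simp
  have h6 : nP t (fun τ => Simp τ ∧ True) = nP t Simp :=
    le_antisymm (nP_mono t fun _ h => h.1) (nP_mono t fun _ h => ⟨h, trivial⟩)
  rw [h5, h6] at h2
  have hfac : (0 : ℝ) < ((2 * M).factorial : ℝ) := by exact_mod_cast Nat.factorial_pos _
  have hF' : (0 : ℝ) < F := by exact_mod_cast hF
  have h7 : c * ((2 * M).factorial : ℝ) ≤ ((Reg n d).ncard : ℝ) * F := by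
    rw [← Nat.cast_mul, h2]; exact h1
  have h8 : (0 : ℝ) < ((Reg n d).ncard : ℝ) := by
    by_contra h
    have h0 : ((Reg n d).ncard : ℝ) = 0 := le_antisymm (not_lt.1 h) (Nat.cast_nonneg _)
    rw [h0, zero_mul] at h7
    have := mul_pos hc hfac
    linarith
  refine ⟨M, t, hM2, ht, Set.nonempty_of_ncard_ne_zero (by exact_mod_cast h8.ne'), ?_⟩
  intro P ε hP hε
  unfold prob
  rw [div_le_iff₀ h8]
  have h10 := hT P
  have h11 : (({G ∈ Reg n d | P G} : Set (SimpleGraph (Fin n))).ncard : ℝ) * F ≤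
      ε * ((Reg n d).ncard : ℝ) * F := by
    rw [← Nat.cast_mul, h10, mul_assoc]
    exact hP.trans (mul_le_mul_of_nonneg_left h7 hε)
  exact le_of_mul_le_mul_right h11 hF'

theorem partA (h1 : Mom) (h2 : Ker) (h3 : Smp) (h4 : Trf) (h5 : Dsum) (h6 : Sch) (h7 : AlgA)
    (h8 : AlgB) (h9 : Ext) : PartA := by
  intro d hd E hE ε hε
  obtain ⟨c, hc, M0, hB⟩ := PartA_base h3 h4 h9 d hd
  by_cases hI : IsIntegral ℤ E
  · have hE' : E ≠ ((d : ℤ) : ℝ) := by simpa using hE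
    obtain ⟨p, hp, hpB, k, hk1, hk2⟩ := h6 (minpoly ℤ E) (minpoly.natDegree_pos hI) d
      (PartA_eval hI hE') (2 + ⌈3 / (c * ε)⌉₊)
    have : Fact p.Prime := ⟨hp⟩
    obtain ⟨n1, hn1⟩ := h1 p (by omega) d hd
    have hke : ((k : ℤ) : ZMod p) ≠ (d : ZMod p) := by
      intro h
      apply hk2
      rw [← ZMod.intCast_zmod_eq_zero_iff_dvd]
      push_cast
      rw [h, sub_self]
    refine ⟨max M0 n1, fun n hn hev => ?_⟩
    obtain ⟨M, t, hM, ht, hne, hP⟩ := hB n (le_trans (le_max_left _ _) hn) hev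
    refine ⟨hne, hP _ ε ?_ hε.le⟩
    have a1 := hn1 n (le_trans (le_max_right _ _) hn) M t k hM ht hke
    have a2 := h2 p n M t k
    have a3 : nP t (fun τ => Simp τ ∧ IsEig (Gr τ) E) ≤
        nP t (fun τ => ∃ v, v ≠ 0 ∧ Sol (k : ZMod p) τ v) := by
      refine nP_mono t fun σ h => ?_
      obtain ⟨-, -, hdv⟩ := h7 n _ E h.2
      obtain ⟨v, hv, hs⟩ := h8 n (Gr (t ∘ σ)) p k (hk1.trans (eval_dvd hdv))
      refine ⟨v, hv, fun u => ?_⟩
      rw [(h5 n M (t ∘ σ) h.1).2 (ZMod p) v u]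
      exact hs u
    have a4 : (p : ℝ) * (nP t (fun τ => Simp τ ∧ IsEig (Gr τ) E) : ℝ) ≤
        3 * ((2 * M).factorial : ℝ) := by
      refine le_trans ?_ a1
      rw [← Nat.cast_sum, ← Nat.cast_mul]
      exact_mod_cast le_trans (Nat.mul_le_mul_left p a3) a2
    have a5 : 3 / (c * ε) ≤ (p : ℝ) :=
      (Nat.le_ceil _).trans (by exact_mod_cast (by omega : ⌈3 / (c * ε)⌉₊ ≤ p))
    have a6 : 3 ≤ (p : ℝ) * (c * ε) := by
      rwa [div_le_iff₀ (mul_pos hc hε)] at a5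
    have hp0 : (0 : ℝ) < p := by exact_mod_cast hp.pos
    have hfac : (0 : ℝ) ≤ ((2 * M).factorial : ℝ) := Nat.cast_nonneg _
    refine le_of_mul_le_mul_left ?_ hp0
    refine a4.trans ?_
    nlinarith [mul_le_mul_of_nonneg_right a6 hfac]
  · refine ⟨M0, fun n hn hev => ?_⟩
    obtain ⟨M, t, hM, ht, hne, hP⟩ := hB n hn hev
    refine ⟨hne, hP _ ε ?_ hε.le⟩
    have a0 : nP t (fun τ => Simp τ ∧ IsEig (Gr τ) E) = 0 := by
      unfold nP
      rw [Finset.card_eq_zero, Finset.eq_empty_iff_forall_notMem]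
      intro σ hσ
      rw [mem_sP] at hσ
      exact hI (h7 n _ E hσ.2).2.1
    rw [a0, Nat.cast_zero]
    positivity

end Vale.Agent.P156
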