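import Vale.Agent.P156.Stm

namespace Vale.Agent.P156

open Finset Polynomial

theorem PartB_mono (n d : ℕ) {P Q : SimpleGraph (Fin n) → Prop}
    (h : ∀ G ∈ Reg n d, P G → Q G) : prob n d P ≤ prob n d Q := by
  unfold prob
  refine div_le_div_of_nonneg_right ?_ (Nat.cast_nonneg _)
  exact Nat.cast_le.2 (Set.ncard_le_ncard (fun G hG => ⟨hG.1, h G hG.1 hG.2⟩) (Set.toFinite _))

theorem PartB_or (n d : ℕ) (P Q : SimpleGraph (Fin n) → Prop) :
    prob n d (fun G => P G ∨ Q G) ≤ prob n d P + prob n d Q := by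
  unfold prob
  rw [← add_div]
  refine div_le_div_of_nonneg_right ?_ (Nat.cast_nonneg _)
  have e : ({G ∈ Reg n d | P G ∨ Q G} : Set (SimpleGraph (Fin n))) =
      {G ∈ Reg n d | P G} ∪ {G ∈ Reg n d | Q G} := by
    ext G; simp only [Set.mem_setOf_eq, Set.mem_union]; tauto
  rw [e]
  exact_mod_cast Set.ncard_union_le _ _

theorem PartB_union (n d : ℕ) (P : ℝ → SimpleGraph (Fin n) → Prop) (s : Finset ℝ) :
    prob n d (fun G => ∃ E ∈ s, P E G) ≤ ∑ E ∈ s, prob n d (P E) := by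
  classical
  induction s using Finset.induction_on with
  | empty => simp [prob]
  | insert a s ha ih =>
    rw [Finset.sum_insert ha]
    refine le_trans (PartB_mono n d (Q := fun G => P a G ∨ ∃ E ∈ s, P E G) ?_)
      ((PartB_or n d _ _).trans (by linarith))
    intro G _ h
    simpa using h

theorem partB (h1 : PartA) (h2 : FinD) : PartB := by
  classical
  intro d hd D ε hε
  set s : Finset ℝ := (h2 d D).toFinset.filter fun E => E ≠ d with hs
  have hpos : 0 < ε / (s.card + 1) := by positivity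
  have hA : ∀ E : ℝ, ∃ n0 : ℕ, E ≠ d → ∀ n : ℕ, n0 ≤ n → Even (n * d) →
      prob n d (fun G => IsEig G E) ≤ ε / (s.card + 1) := by
    intro E
    by_cases hE : E = d
    · exact ⟨0, fun h => absurd hE h⟩
    · obtain ⟨n0, h⟩ := h1 d hd E hE _ hpos
      exact ⟨n0, fun _ n hn he => (h n hn he).2⟩
  choose N hN using hA
  refine ⟨s.sup N, fun n hn he => ?_⟩
  have m1 : prob n d (fun G => ∃ E : ℝ, E ≠ d ∧ DegLe D E ∧ IsEig G E) ≤
      prob n d (fun G => ∃ E ∈ s, IsEig G E) := by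
    refine PartB_mono n d ?_
    rintro G hG ⟨E, e1, e2, e3⟩
    refine ⟨E, ?_, e3⟩
    rw [hs, Finset.mem_filter, Set.Finite.mem_toFinset]
    exact ⟨⟨⟨n, G, hG, e3⟩, e2⟩, e1⟩
  have m2 := PartB_union n d (fun E G => IsEig G E) s
  have m3 : ∑ E ∈ s, prob n d (fun G => IsEig G E) ≤ ∑ _E ∈ s, ε / (s.card + 1) :=
    Finset.sum_le_sum fun E hE =>
      hN E (Finset.mem_filter.1 hE).2 n ((Finset.le_sup hE).trans hn) he
  rw [Finset.sum_const, nsmul_eq_mul] at m3
  have m4 : (s.card : ℝ) * (ε / (s.card + 1)) ≤ ε := by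
    rw [mul_div_assoc', div_le_iff₀ (by positivity)]
    nlinarith
  linarith

end Vale.Agent.P156
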