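import Vale.Agent.P156.Stm

namespace Vale.Agent.P156

open Finset Polynomial

open Classical in
theorem Root_vec {n : ℕ} (G : SimpleGraph (Fin n)) (z : ℂ) (hz : aeval z (chi G) = 0) :
    ∃ v : Fin n → ℂ, v ≠ 0 ∧ ∀ u, ∑ w ∈ nbr G u, v w = z * v u := by
  have h1 : (((G.adjMatrix ℤ).map (Int.castRingHom ℂ)).charpoly).eval z = 0 := by
    rw [Matrix.charpoly_map, Polynomial.eval_map]
    have h2 : (Int.castRingHom ℂ) = algebraMap ℤ ℂ := RingHom.ext_int _ _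
    rw [h2, ← Polynomial.aeval_def]
    exact hz
  rw [Matrix.eval_charpoly] at h1
  obtain ⟨v, hv, hM⟩ := Matrix.exists_mulVec_eq_zero_iff.mpr h1
  refine ⟨v, hv, fun u => ?_⟩
  have h3 := congrFun hM u
  rw [Matrix.sub_mulVec] at h3
  have h4 : (Matrix.mulVec (Matrix.scalar (Fin n) z) v) u = z * v u := by
    rw [Matrix.scalar_apply, Matrix.mulVec_diagonal]
  have h5 : (Matrix.mulVec ((G.adjMatrix ℤ).map (Int.castRingHom ℂ)) v) u
      = ∑ w ∈ nbr G u, v w := by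
    unfold nbr
    rw [Finset.sum_filter]
    simp only [Matrix.mulVec, dotProduct, Matrix.map_apply, SimpleGraph.adjMatrix_apply]
    refine Finset.sum_congr rfl fun w _ => ?_
    by_cases h : G.Adj u w
    · simp [h]
    · simp [h]
  rw [Pi.sub_apply, h4, h5, Pi.zero_apply] at h3
  exact (sub_eq_zero.mp h3).symm

theorem root : Root := by
  intro n d G hG z hz
  obtain ⟨v, hv, hvz⟩ := Root_vec G z hz
  obtain ⟨u0, hu0⟩ : ∃ u, v u ≠ 0 := by
    by_contra h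
    push Not at h
    exact hv (funext h)
  haveI : Nonempty (Fin n) := ⟨u0⟩
  obtain ⟨u, hu⟩ := Finite.exists_max (fun u => ‖v u‖)
  have hpos : 0 < ‖v u‖ := lt_of_lt_of_le (norm_pos_iff.mpr hu0) (hu u0)
  have hc : (nbr G u).card = d := by rw [card_nbr]; exact hG u
  have h1 : ‖z‖ * ‖v u‖ ≤ (d : ℝ) * ‖v u‖ := by
    rw [← norm_mul, ← hvz u]
    calc ‖∑ w ∈ nbr G u, v w‖ ≤ ∑ w ∈ nbr G u, ‖v w‖ := norm_sum_le _ _
      _ ≤ ∑ _w ∈ nbr G u, ‖v u‖ := Finset.sum_le_sum fun w _ => hu w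
      _ = (d : ℝ) * ‖v u‖ := by rw [Finset.sum_const, hc, nsmul_eq_mul]
  exact le_of_mul_le_mul_right h1 hpos

end Vale.Agent.P156
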