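import Vale.Agent.P156.Stm

namespace Vale.Agent.P156

open Finset Polynomial

theorem Sch_ne (f : ℤ[X]) (hf : 0 < f.natDegree) (c : ℤ) : f - C c ≠ 0 := by
  intro h
  have h1 : f = C c := sub_eq_zero.1 h
  rw [h1, natDegree_C] at hf
  exact lt_irrefl _ hf

theorem Sch_ex (f : ℤ[X]) (hf : 0 < f.natDegree) (a b m : ℤ) (hm : m ≠ 0) :
    ∃ j : ℤ, f.eval (a + m * j) ≠ b ∧ f.eval (a + m * j) ≠ -b := by
  have hg : (f - C b) * (f - C (-b)) ≠ 0 := mul_ne_zero (Sch_ne f hf b) (Sch_ne f hf (-b))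
  have hfin := finite_setOf_isRoot hg
  have hinj : Function.Injective (fun j : ℤ => a + m * j) := by
    intro j j' h
    have h' : m * j = m * j' := by simpa using h
    exact mul_left_cancel₀ hm h'
  obtain ⟨j, hj⟩ := (hfin.preimage hinj.injOn).exists_notMem
  refine ⟨j, fun h => hj ?_, fun h => hj ?_⟩
  · simp [IsRoot, h]
  · simp [IsRoot, h]

theorem sch : Sch := by
  intro f hf a ha B
  set b := f.eval a with hb
  set T : ℕ := (B + b.natAbs).factorial with hT
  have hT0 : (T : ℤ) ≠ 0 := by exact_mod_cast (Nat.factorial_pos _).ne'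
  obtain ⟨j, h1, h2⟩ := Sch_ex f hf a b (b * T) (mul_ne_zero ha hT0)
  obtain ⟨q, hq⟩ := sub_dvd_eval_sub (a + b * T * j) a f
  have hk : f.eval (a + b * T * j) = b * (1 + T * j * q) := by
    rw [← hb] at hq
    linear_combination hq
  have hne : (1 + T * j * q).natAbs ≠ 1 := by
    intro h
    rcases Int.natAbs_eq_iff.1 h with h | h
    · apply h1; rw [hk, h]; simp
    · apply h2; rw [hk, h]; simp
  obtain ⟨p, hp, hd⟩ := Nat.exists_prime_and_dvd hne
  have hd' : (p : ℤ) ∣ 1 + T * j * q := Int.natCast_dvd.2 hd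
  have hpz : Prime (p : ℤ) := Nat.prime_iff_prime_int.1 hp
  have hn : ¬ (p : ℤ) ∣ T * j := by
    intro h
    have h3 : (p : ℤ) ∣ 1 := by
      have := dvd_sub hd' (h.mul_right q)
      simpa using this
    exact hpz.not_dvd_one h3
  have hlt : B + b.natAbs < p := by
    by_contra h
    apply hn
    have : p ∣ T := Nat.dvd_factorial hp.pos (not_lt.1 h)
    exact (Int.natCast_dvd_natCast.2 this).mul_right j
  refine ⟨p, hp, by omega, a + b * T * j, ?_, ?_⟩
  · rw [hk]; exact hd'.mul_left b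
  · intro h
    have h3 : (p : ℤ) ∣ b * (T * j) := by
      have e : a + b * T * j - a = b * (T * j) := by ring
      rwa [e] at h
    rcases hpz.dvd_or_dvd h3 with h4 | h4
    · have := Nat.le_of_dvd (Int.natAbs_pos.2 ha) (Int.natCast_dvd.1 h4)
      omega
    · exact hn h4

end Vale.Agent.P156
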