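import Vale.Agent.P156.Stm

namespace Vale.Agent.P156

open Finset Polynomial

theorem Sm_pow {C η x N : ℝ} {u : ℕ} (hC : 0 ≤ C) (hN : 0 < N) (hu : 1 ≤ u) (hx : x = C * u / N)
    (h1 : x ≤ 1 / 64) (h2 : 32 * C ≤ η ^ 5 * N) : x ^ u ≤ (η * (1 / 2) ^ u) ^ 5 := by
  obtain ⟨k, rfl⟩ : ∃ k, u = k + 1 := ⟨u - 1, by omega⟩
  have hx0 : 0 ≤ x := by rw [hx]; positivity
  have h3 : ((k + 1 : ℕ) : ℝ) ≤ 2 ^ k := by exact_mod_cast Nat.lt_two_pow_self
  have h4 : x ≤ η ^ 5 / 32 * 2 ^ k := by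
    rw [hx, div_le_iff₀ hN]
    have h5 : C * ((k + 1 : ℕ) : ℝ) ≤ C * 2 ^ k := mul_le_mul_of_nonneg_left h3 hC
    have h6 : 32 * C * 2 ^ k ≤ η ^ 5 * N * 2 ^ k := mul_le_mul_of_nonneg_right h2 (by positivity)
    linarith
  have h7 : x ^ k ≤ (1 / 64) ^ k := pow_le_pow_left₀ hx0 h1 k
  have h8 : (η * (1 / 2) ^ (k + 1)) ^ 5 = (1 / 64) ^ k * (η ^ 5 / 32 * 2 ^ k) := by
    have e1 : ((1 / 2 : ℝ) ^ (k + 1)) ^ 5 = (1 / 32) ^ k * (1 / 32) := by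
      rw [← pow_mul, mul_comm, pow_mul, pow_succ]
      norm_num
    have e2 : ((1 / 32 : ℝ)) ^ k = (1 / 64) ^ k * 2 ^ k := by
      rw [← mul_pow]
      norm_num
    rw [mul_pow, e1, e2]
    ring
  rw [h8, pow_succ]
  exact mul_le_mul h7 h4 hx0 (by positivity)

theorem Sm_geo (s : Finset ℕ) : ∑ u ∈ s, (1 / 2 : ℝ) ^ u ≤ 2 :=
  (summable_geometric_two.sum_le_tsum s fun _ _ => by positivity).trans_eq tsum_geometric_two

theorem sm (h1 : Trm) : Sm := by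
  intro d p hd
  have hd0 : (0 : ℝ) < d := by exact_mod_cast (by omega : 0 < d)
  obtain ⟨C, hC⟩ : ∃ C : ℝ, C = (3 * (p : ℝ)) ^ 5 * (6 * (d : ℝ)) ^ 6 := ⟨_, rfl⟩
  have hC0 : 0 ≤ C := by rw [hC]; positivity
  refine ⟨min (1 / (6 * d)) (1 / (64 * (C + 1))), by positivity, fun ε hε => ?_⟩
  obtain ⟨n0, hn0⟩ := exists_nat_gt (32 * C / (ε / 2) ^ 5)
  refine ⟨n0, fun n hn M hM s hs => ?_⟩
  have hn1 : 32 * C / (ε / 2) ^ 5 < n := hn0.trans_le (by exact_mod_cast hn)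
  have hN : (0 : ℝ) < n := lt_of_le_of_lt (by positivity) hn1
  have hn2 : 32 * C ≤ (ε / 2) ^ 5 * n := by
    rw [div_lt_iff₀ (by positivity)] at hn1
    linarith
  have key : ∀ u ∈ s, (trm d p n M u : ℝ) ≤
      ((2 * M).factorial : ℝ) * (ε / 2) * (1 / 2) ^ u := fun u hu => by
    obtain ⟨a1, a2⟩ := hs u hu
    have a3 : (u : ℝ) ≤ 1 / (6 * d) * n :=
      a2.trans (mul_le_mul_of_nonneg_right (min_le_left _ _) hN.le)
    have a4 : (u : ℝ) ≤ 1 / (64 * (C + 1)) * n :=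
      a2.trans (mul_le_mul_of_nonneg_right (min_le_right _ _) hN.le)
    rw [one_div_mul_eq_div, le_div_iff₀ (by positivity)] at a3 a4
    have a5 : 6 * d * u ≤ n := by
      have : ((6 * d * u : ℕ) : ℝ) ≤ n := by
        push_cast
        linarith
      exact_mod_cast this
    have a6 : C * u / n ≤ 1 / 64 := by
      rw [div_le_iff₀ hN]
      have : (0 : ℝ) ≤ u := Nat.cast_nonneg u
      nlinarith
    have a7 := h1 d p n M u a1 hd hM a5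
    rw [← hC] at a7
    have a8 := Sm_pow hC0 hN a1 rfl a6 hn2
    refine le_of_pow_le_pow_left₀ (n := 5) (by norm_num) (by positivity) (a7.trans ?_)
    rw [mul_assoc, mul_pow]
    exact mul_le_mul_of_nonneg_left a8 (by positivity)
  refine (sum_le_sum key).trans ?_
  rw [← mul_sum]
  have h2 : ((2 * M).factorial : ℝ) * (ε / 2) * ∑ u ∈ s, (1 / 2 : ℝ) ^ u ≤
      ((2 * M).factorial : ℝ) * (ε / 2) * 2 :=
    mul_le_mul_of_nonneg_left (Sm_geo s) (by positivity)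
  linarith

end Vale.Agent.P156
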