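import Vale.Agent.P156.Stm

namespace Vale.Agent.P156

open Finset Polynomial

theorem Smp_or {M n : ℕ} (t : Pos M → Fin n) {P Q R : (Pos M → Fin n) → Prop}
    (h : ∀ τ, P τ → Q τ ∨ R τ) : nP t P ≤ nP t Q + nP t R := by
  refine le_trans (card_le_card fun σ hσ => ?_) (card_union_le (sP t Q) (sP t R))
  rw [mem_union, mem_sP, mem_sP]
  exact h _ ((mem_sP _ _ _).1 hσ)

theorem Smp_ind (h2 : Dbl) {d n M K : ℕ} {t : Pos M → Fin n} (ht : Fib d t)
    (hM : 2 + 2 * K + 2 * (d * (d + 1)) ≤ M) : ∀ k, k ≤ K →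
    nP t (fun τ => Df τ ≤ k) ≤ (1 + d * (d + 1)) ^ k * nP t Simp := by
  intro k
  induction k with
  | zero =>
    intro _
    rw [pow_zero, one_mul]
    exact nP_mono t fun σ h => (simp_iff _).2 (Nat.le_zero.1 h)
  | succ k ih =>
    intro hk
    have a1 := ih (by omega)
    have a2 := h2 d n M (k + 1) t ht (by omega) (by omega)
    have a3 : nP t (fun τ => Df τ < k + 1) ≤ nP t (fun τ => Df τ ≤ k) :=
      nP_mono t fun σ h => Nat.lt_succ_iff.1 h
    have a4 : nP t (fun τ => Df τ ≤ k + 1) ≤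
        nP t (fun τ => Df τ = k + 1) + nP t (fun τ => Df τ ≤ k) :=
      Smp_or t fun τ h => by omega
    calc nP t (fun τ => Df τ ≤ k + 1)
        ≤ d * (d + 1) * nP t (fun τ => Df τ ≤ k) + nP t (fun τ => Df τ ≤ k) :=
          a4.trans (Nat.add_le_add_right (a2.trans (Nat.mul_le_mul_left _ a3)) _)
      _ = (1 + d * (d + 1)) * nP t (fun τ => Df τ ≤ k) := by ring
      _ ≤ (1 + d * (d + 1)) * ((1 + d * (d + 1)) ^ k * nP t Simp) := Nat.mul_le_mul_left _ a1
      _ = _ := by ring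

theorem Smp_markov {n M : ℕ} (t : Pos M → Fin n) (K : ℕ) :
    (K + 1) * nP t (fun τ => K < Df τ) ≤ ∑ σ : Equiv.Perm (Pos M), Df (t ∘ σ) := by
  have h := card_nsmul_le_sum (sP t fun τ => K < Df τ) (fun σ => Df (t ∘ σ)) (K + 1)
    fun σ hσ => (mem_sP _ _ _).1 hσ
  rw [smul_eq_mul, mul_comm] at h
  exact h.trans (sum_le_sum_of_subset (subset_univ _))

theorem smp (h1 : DfE) (h2 : Dbl) : Smp := by
  intro d
  obtain ⟨K, hK⟩ : ∃ K, K = 2 * (d + 4 * d ^ 2) := ⟨_, rfl⟩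
  refine ⟨1 / (2 * (1 + d * (d + 1)) ^ K), by positivity, 3 + 2 * K + 2 * (d * (d + 1)),
    fun n M t hM hn ht => ?_⟩
  have a1 := Smp_ind h2 ht (K := K) (by omega) K le_rfl
  have a2 := (Smp_markov t K).trans (h1 d n M t hn (by omega) ht)
  have a3 : (2 * M).factorial ≤ nP t (fun τ => Df τ ≤ K) + nP t (fun τ => K < Df τ) := by
    refine le_trans ?_ (Smp_or t (P := fun _ => True) fun τ _ => le_or_gt _ _)
    rw [← card_perm']
    exact card_le_card fun σ _ => (mem_sP _ _ _).2 trivial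
  have a4 : 2 * nP t (fun τ => K < Df τ) ≤ (2 * M).factorial := by
    refine Nat.le_of_mul_le_mul_left ?_ (Nat.succ_pos K)
    calc (K + 1) * (2 * nP t (fun τ => K < Df τ))
        = 2 * ((K + 1) * nP t (fun τ => K < Df τ)) := by ring
      _ ≤ 2 * ((d + 4 * d ^ 2) * (2 * M).factorial) := Nat.mul_le_mul_left _ a2
      _ = K * (2 * M).factorial := by rw [hK]; ring
      _ ≤ (K + 1) * (2 * M).factorial := Nat.mul_le_mul_right _ (Nat.le_succ K)
  have a5 : (2 * M).factorial ≤ 2 * (1 + d * (d + 1)) ^ K * nP t Simp := by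
    rw [mul_assoc]
    omega
  rw [one_div, inv_mul_le_iff₀ (by positivity)]
  exact_mod_cast a5

end Vale.Agent.P156
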