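import Vale.Agent.P156.Stm

namespace Vale.Agent.P156

open Finset Polynomial

theorem Spa_card (p : ℕ) [Fact p.Prime] {n : ℕ} (S : Finset (Fin n → ZMod p))
    (U : Finset (Fin n)) : (S.filter fun v => ∀ u, v u ≠ 0 → u ∈ U).card ≤ p ^ U.card := by
  have h : Fintype.card (U → ZMod p) = p ^ U.card := by
    rw [Fintype.card_fun, ZMod.card, Fintype.card_coe]
  rw [← h]
  refine card_le_card_of_injOn (fun v (u : U) => v u) (fun _ _ => mem_coe.2 (mem_univ _)) ?_
  intro v hv w hw hvw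
  have hv' := (mem_filter.1 (mem_coe.1 hv)).2
  have hw' := (mem_filter.1 (mem_coe.1 hw)).2
  funext u
  by_cases hu : u ∈ U
  · exact congrFun hvw ⟨u, hu⟩
  · rw [not_not.1 (mt (hv' u) hu), not_not.1 (mt (hw' u) hu)]

theorem Spa_grp (n L : ℕ) (f : ℕ → ℕ) :
    ∑ U ∈ univ.filter (fun U : Finset (Fin n) => U.card ∈ Icc 1 L), f U.card ≤
      ∑ u ∈ Icc 1 L, n.choose u * f u := by
  rw [← sum_fiberwise_of_maps_to (t := Icc 1 L) (g := card) fun U hU => (mem_filter.1 hU).2]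
  refine sum_le_sum fun u _ => ?_
  rw [sum_congr rfl fun U hU => congrArg f (mem_filter.1 hU).2, sum_const, smul_eq_mul]
  refine Nat.mul_le_mul_right _ (le_trans (card_le_card (t := powersetCard u univ) fun U hU =>
    mem_powersetCard.2 ⟨subset_univ _, (mem_filter.1 hU).2⟩) ?_)
  rw [card_powersetCard, card_univ, Fintype.card_fin]

theorem spa (h1 : Den) (h2 : Dpr) : Spa := by
  intro p _ d n M L t e S hd ht hS
  have s1 : ∀ v ∈ S, nP t (fun τ => Sol e τ v) ≤
      ∑ U ∈ univ.filter (fun U : Finset (Fin n) => U.card ∈ Icc 1 L),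
        if ∀ u, v u ≠ 0 → u ∈ U then nP t (fun τ => (6 * U.card + 4) / 5 ≤ inn τ U) else 0 := by
    intro v hv
    rw [← sum_filter]
    refine le_trans (card_le_card fun σ hσ => ?_) card_biUnion_le
    rw [mem_sP] at hσ
    obtain ⟨U, u1, u2, u3⟩ := h1 p d n M _ e v hd (ht.perm σ) hσ
    obtain ⟨u, hu⟩ := Function.ne_iff.1 (hS v hv).1
    have u4 := card_pos.2 ⟨u, u1 u hu⟩
    have u5 := (hS v hv).2
    refine mem_biUnion.2 ⟨U, mem_filter.2 ⟨mem_filter.2 ⟨mem_univ _, mem_Icc.2 ?_⟩, u1⟩, ?_⟩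
    · omega
    · rw [mem_sP]
      omega
  refine (sum_le_sum s1).trans ?_
  rw [sum_comm]
  refine le_trans (sum_le_sum fun U _ => ?_) ((Spa_grp n L fun u => p ^ u *
    (M.choose ((6 * u + 4) / 5) * (d * u) ^ (2 * ((6 * u + 4) / 5)) *
      (2 * M - 2 * ((6 * u + 4) / 5)).factorial)).trans_eq ?_)
  · rw [← sum_filter, sum_const, smul_eq_mul]
    exact Nat.mul_le_mul (Spa_card p S U) (h2 d n M t U _ ht)
  · exact sum_congr rfl fun u _ => (mul_assoc _ _ _).symm

end Vale.Agent.P156
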