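import Vale.Agent.P156.Stm

namespace Vale.Agent.P156

open Finset Polynomial

theorem spl : Spl := by
  intro Y _ _ S Φ I Q B hI hs hB
  have hre : ∀ v, Q * I v = ∑ w ∈ S, (Φ v w).re + ∑ w ∈ Sᶜ, (Φ v w).re := fun v => by
    rw [Finset.sum_add_sum_compl, ← Complex.re_sum, hI, Complex.ofReal_re]
  have h1 : Q * ∑ v ∈ S, I v = ∑ v ∈ S, ∑ w ∈ S, (Φ v w).re + ∑ v ∈ S, ∑ w ∈ Sᶜ, (Φ v w).re := by
    rw [Finset.mul_sum, ← Finset.sum_add_distrib]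
    exact Finset.sum_congr rfl fun v _ => hre v
  have h2 : Q * ∑ v ∈ Sᶜ, I v =
      ∑ v ∈ Sᶜ, ∑ w ∈ S, (Φ v w).re + ∑ v ∈ Sᶜ, ∑ w ∈ Sᶜ, (Φ v w).re := by
    rw [Finset.mul_sum, ← Finset.sum_add_distrib]
    exact Finset.sum_congr rfl fun v _ => hre v
  have h3 : ∑ v ∈ Sᶜ, ∑ w ∈ S, (Φ v w).re = ∑ v ∈ S, ∑ w ∈ Sᶜ, (Φ v w).re := by
    rw [Finset.sum_comm]
    exact Finset.sum_congr rfl fun v _ => Finset.sum_congr rfl fun w _ => by rw [hs]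
  have h4 : ∑ v ∈ Sᶜ, ∑ w ∈ Sᶜ, (Φ v w).re ≤ ∑ v ∈ Sᶜ, ∑ w ∈ Sᶜ, ‖Φ v w‖ :=
    Finset.sum_le_sum fun v _ => Finset.sum_le_sum fun w _ => Complex.re_le_norm _
  have h5 : ∑ v ∈ S, ∑ w ∈ S, (-B) ≤ ∑ v ∈ S, ∑ w ∈ S, (Φ v w).re :=
    Finset.sum_le_sum fun v _ => Finset.sum_le_sum fun w _ =>
      (neg_le_neg (hB v w)).trans (neg_le_of_abs_le (Complex.abs_re_le_norm _))
  simp only [Finset.sum_const, nsmul_eq_mul] at h5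
  rw [← Finset.sum_add_sum_compl S I, mul_add, mul_assoc]
  nlinarith

end Vale.Agent.P156
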