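import Vale.Agent.P156.Stm

namespace Vale.Agent.P156

open Finset Polynomial

variable {M n : ℕ}

theorem Tor_loop {τ : Pos M → Fin n} (h : Simp τ) (x : Pos M) : τ x ≠ τ (fl x) := by
  rcases x with ⟨j, b⟩
  intro e
  refine h j (Or.inl ?_)
  cases b
  · exact e
  · exact e.symm

theorem Tor_simp {τ : Pos M → Fin n} (h1 : ∀ x, τ x ≠ τ (fl x))
    (h2 : ∀ x y, τ x = τ y → τ (fl x) = τ (fl y) → x = y) : Simp τ := by
  rintro j (e | ⟨i, hij, e⟩)
  · exact h1 (j, false) e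
  · unfold ed at e
    rcases Sym2.eq_iff.1 e with ⟨a, b⟩ | ⟨a, b⟩
    · exact hij (congrArg Prod.fst (h2 (i, false) (j, false) a b))
    · exact hij (congrArg Prod.fst (h2 (i, false) (j, true) a b))

theorem Tor_gr (τ : Pos M → Fin n) (π : Equiv.Perm (Pos M)) (hπ : ∀ x, π (fl x) = fl (π x)) :
    Gr (τ ∘ π) = Gr τ := by
  unfold Gr
  congr 1
  funext u w
  refine propext ⟨?_, ?_⟩
  · rintro ⟨x, a, b⟩
    exact ⟨π x, a, by rw [← hπ]; exact b⟩
  · rintro ⟨x, a, b⟩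
    obtain ⟨y, rfl⟩ := π.surjective x
    exact ⟨y, a, by rw [← hπ] at b; exact b⟩

theorem tor (h1 : Drt) : Tor := by
  intro n M τ0 h0
  obtain ⟨d0, a0⟩ := h1 n M τ0 h0
  symm
  refine Finset.card_bij (fun π _ => τ0 ∘ π) (fun π hπ => ?_) (fun π hπ σ hσ e => ?_)
    (fun τ hτ => ?_)
  · rw [mem_comS] at hπ
    rw [mem_fibS]
    refine ⟨Tor_simp (fun x => ?_) (fun x y a b => ?_), Tor_gr τ0 π hπ⟩
    · show τ0 (π x) ≠ τ0 (π (fl x))
      rw [hπ]
      exact Tor_loop h0 _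
    · refine π.injective (d0 _ _ a ?_)
      rw [← hπ, ← hπ]
      exact b
  · rw [mem_comS] at hπ hσ
    refine Equiv.ext fun x => d0 _ _ (congrFun e x) ?_
    rw [← hπ, ← hσ]
    exact congrFun e (fl x)
  · rw [mem_fibS] at hτ
    obtain ⟨hs, hg⟩ := hτ
    obtain ⟨d1, a1⟩ := h1 n M τ hs
    have hex : ∀ x, ∃ y, τ0 y = τ x ∧ τ0 (fl y) = τ (fl x) := fun x =>
      (a0 _ _).1 (hg ▸ (a1 _ _).2 ⟨x, rfl, rfl⟩)
    choose p hp1 hp2 using hex
    have hinj : Function.Injective p := fun x y e =>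
      d1 x y (by rw [← hp1, ← hp1, e]) (by rw [← hp2, ← hp2, e])
    refine ⟨Equiv.ofBijective p (Finite.injective_iff_bijective.1 hinj), ?_, funext fun x => hp1 x⟩
    rw [mem_comS]
    intro x
    show p (fl x) = fl (p x)
    refine d0 _ _ (by rw [hp1, hp2]) ?_
    rw [hp2, fl_fl, fl_fl, hp1]

end Vale.Agent.P156
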