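import Vale.Agent.P156.Stm

namespace Vale.Agent.P156

open Finset Polynomial

open Classical in
theorem Trf_fib (h2 : Dsum) (h3 : Enu) (h4 : Tor) (d n M : ℕ) (m : Fin n → ℕ) (hM : 2 * M = n * d)
    (hm : ∀ u, m u = d) (P : SimpleGraph (Fin n) → Prop) :
    ((Ty m : Finset (Pos M → Fin n)).filter fun g => Simp g ∧ P (Gr g)).card =
      ({G ∈ Reg n d | P G} : Set (SimpleGraph (Fin n))).ncard * (comS M).card := by
  have e : ({G ∈ Reg n d | P G} : Set (SimpleGraph (Fin n))) =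
      (univ.filter fun G => G ∈ Reg n d ∧ P G : Finset (SimpleGraph (Fin n))) := by
    ext G; simp
  rw [e, Set.ncard_coe_finset, card_eq_sum_card_fiberwise (f := Gr)
    (t := univ.filter fun G => G ∈ Reg n d ∧ P G), ← smul_eq_mul, ← sum_const]
  · refine sum_congr rfl fun G hG => ?_
    obtain ⟨hR, hP⟩ := (mem_filter.1 hG).2
    obtain ⟨τ0, hs, rfl⟩ := h3 n d M G hR hM
    rw [← h4 n M τ0 hs]
    refine congrArg card ?_
    ext g
    simp only [mem_filter, mem_Ty, mem_fibS]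
    refine ⟨fun h => ⟨h.1.2.1, h.2⟩, fun h => ⟨⟨fun u => ?_, h.1, h.2 ▸ hP⟩, h.2⟩⟩
    rw [← (h2 n M g h.1).1 u, h.2, hm]
    exact hR u
  · intro g hg
    simp only [coe_filter, mem_Ty, mem_univ, true_and] at hg ⊢
    exact ⟨fun u => by rw [(h2 n M g hg.2.1).1 u, hg.1, hm], hg.2.2⟩

theorem trf (h1 : Orb) (h2 : Dsum) (h3 : Enu) (h4 : Tor) : Trf := by
  classical
  intro d n M t hM ht
  refine ⟨(∏ u, (cnt t u).factorial) * (comS M).card,
    Nat.mul_pos (prod_pos fun u _ => Nat.factorial_pos _) (card_pos.2 ⟨1, by simp⟩), fun P => ?_⟩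
  have h5 := h1 ℕ (Pos M) (Fin n) t fun g => if Simp g ∧ P (Gr g) then 1 else 0
  rw [← card_filter, ← card_filter, Nat.cast_id] at h5
  have h6 := Trf_fib h2 h3 h4 d n M (cnt t) hM ht P
  have e1 : sP t (fun τ => Simp τ ∧ P (Gr τ)) =
      univ.filter fun σ : Equiv.Perm (Pos M) => Simp (t ∘ σ) ∧ P (Gr (t ∘ σ)) := by
    ext σ; simp
  rw [nP, e1, h5, mul_left_comm, ← h6]

end Vale.Agent.P156
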