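import Vale.Agent.P156.Stm

namespace Vale.Agent.P156

open Finset Polynomial

theorem Trm_choose (N j : ℕ) {u : ℝ} (hu : 0 < u) (hj : u ≤ j) :
    (N.choose j : ℝ) ≤ (3 * N / u) ^ j := by
  have h1 : (j : ℝ) ^ j / j.factorial ≤ 3 ^ j := by
    refine (Real.pow_div_factorial_le_exp _ (Nat.cast_nonneg j) j).trans ?_
    rw [← mul_one (j : ℝ), Real.exp_nat_mul]
    exact pow_le_pow_left₀ (Real.exp_pos 1).le
      (Real.exp_one_lt_d9.le.trans (by norm_num)) j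
  have h2 : (0 : ℝ) < j.factorial := by positivity
  have h3 : u ^ j ≤ 3 ^ j * j.factorial :=
    (pow_le_pow_left₀ hu.le hj j).trans ((div_le_iff₀ h2).1 h1)
  refine (Nat.choose_le_pow_div j N).trans ?_
  rw [div_pow, mul_pow, div_le_div_iff₀ h2 (by positivity)]
  calc (N : ℝ) ^ j * u ^ j ≤ (N : ℝ) ^ j * (3 ^ j * j.factorial) := by gcongr
    _ = _ := by ring

theorem trm_pf : Trm := by
  intro d p n M u hu hd hM hn
  unfold trm
  obtain ⟨k, hk⟩ : ∃ k, k = (6 * u + 4) / 5 := ⟨_, rfl⟩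
  rw [← hk]
  have k1 : u ≤ k := by omega
  have k2 : 6 * u ≤ 5 * k := by omega
  have hn' : 18 * u ≤ n := le_trans (Nat.mul_le_mul_right u (by omega)) hn
  have hM' : n * 3 ≤ 2 * M := hM ▸ Nat.mul_le_mul_left n hd
  have k3 : 2 * k ≤ M := by omega
  have u0 : (0 : ℝ) < u := Nat.cast_pos.2 hu
  have n0 : (0 : ℝ) < n := Nat.cast_pos.2 (by omega)
  have M0 : (0 : ℝ) < M := Nat.cast_pos.2 (by omega)
  have d0 : (0 : ℝ) < d := Nat.cast_pos.2 (by omega)
  have a1 := Trm_choose n u u0 le_rfl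
  have a2 := Trm_choose M k u0 (Nat.cast_le.2 k1)
  have a3 : (2 * M - 2 * k).factorial * M ^ (2 * k) ≤ (2 * M).factorial := by
    have := Nat.factorial_mul_pow_le_factorial (m := 2 * M - 2 * k) (n := 2 * k)
    rw [show 2 * M - 2 * k + 2 * k = 2 * M by omega] at this
    exact (Nat.mul_le_mul_left _ (Nat.pow_le_pow_left (by omega) _)).trans this
  have a4 : ((2 * M - 2 * k).factorial : ℝ) ≤ (2 * M).factorial / (M : ℝ) ^ (2 * k) := by
    rw [le_div_iff₀ (by positivity)]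
    exact_mod_cast a3
  have eM : (M : ℝ) = n * d / 2 := by
    have : (2 : ℝ) * M = n * d := by exact_mod_cast hM
    linarith
  have y1 : 6 * (d : ℝ) * u / n ≤ 1 := by
    rw [div_le_one n0]
    exact_mod_cast hn
  have e1 : (3 * (M : ℝ) / u) ^ k * ((d : ℝ) * u) ^ (2 * k) *
      ((2 * M).factorial / (M : ℝ) ^ (2 * k)) = (2 * M).factorial * (6 * (d : ℝ) * u / n) ^ k := by
    have : 6 * (d : ℝ) * u / n = 3 * (M : ℝ) / u * ((d : ℝ) * u) ^ 2 / M ^ 2 := by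
      rw [eM]
      field_simp
      ring
    rw [this, div_pow _ ((M : ℝ) ^ 2), mul_pow (3 * (M : ℝ) / u), ← pow_mul, ← pow_mul]
    generalize (3 * (M : ℝ) / u) ^ k = a
    generalize ((d : ℝ) * u) ^ (2 * k) = b
    ring
  have b1 : (n.choose u : ℝ) * (p : ℝ) ^ u * ((M.choose k : ℝ) * ((d : ℝ) * u) ^ (2 * k) *
      (2 * M - 2 * k).factorial) ≤
      (3 * n / u) ^ u * (p : ℝ) ^ u * ((2 * M).factorial * (6 * (d : ℝ) * u / n) ^ k) := by
    rw [← e1]
    gcongr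
  have b2 : ((6 * (d : ℝ) * u / n) ^ k) ^ 5 ≤ ((6 * (d : ℝ) * u / n) ^ 6) ^ u := by
    rw [← pow_mul, ← pow_mul]
    exact pow_le_pow_of_le_one (by positivity) y1 (by omega)
  have e2 : (3 * (p : ℝ)) ^ 5 * (6 * (d : ℝ)) ^ 6 * u / n =
      (3 * n / u * p) ^ 5 * (6 * (d : ℝ) * u / n) ^ 6 := by
    field_simp
  push_cast
  refine (pow_le_pow_left₀ (by positivity) b1 5).trans ?_
  rw [e2, mul_pow _ _ u, ← mul_pow _ _ u, ← pow_mul _ 5 u, mul_comm 5 u, pow_mul, mul_pow,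
    mul_pow _ _ 5, mul_left_comm]
  gcongr

end Vale.Agent.P156
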