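import Vale.Agent.P156.Stm

namespace Vale.Agent.P156

open Finset Polynomial

theorem Typ_fib {n : ℕ} {X : Type} [Fintype X] [DecidableEq X] (m : X → ℕ) :
    ∑ c ∈ univ.filter fun c : Fin n → X => cnt c = m, qq c ≤ 1 := by
  rcases (univ.filter fun c : Fin n → X => cnt c = m).eq_empty_or_nonempty with h | ⟨c0, h0⟩
  · rw [h, sum_empty]
    exact zero_le_one
  have e0 : ∑ x, m x = n := by rw [← (mem_filter.1 h0).2, sum_cnt, Fintype.card_fin]
  have e1 : ∀ c ∈ univ.filter fun c : Fin n → X => cnt c = m,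
      qq c = ∏ u, ((m (c u) : ℝ) / n) := fun c hc => by
    rw [← (mem_filter.1 hc).2, ← prod_fiberwise univ c]
    refine prod_congr rfl fun x _ => ?_
    exact (prod_eq_pow_card fun u hu => by rw [(mem_filter.1 hu).2]).symm
  rw [sum_congr rfl e1]
  refine (sum_le_sum_of_subset_of_nonneg (subset_univ _) fun c _ _ => by positivity).trans ?_
  have e2 := prod_univ_sum (fun _ : Fin n => (univ : Finset X)) fun _ x => ((m x : ℝ) / n)
  rw [Fintype.piFinset_univ] at e2
  rw [← e2, ← sum_div, ← Nat.cast_sum, e0]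
  exact prod_le_one (fun _ _ => by positivity) fun _ _ => div_self_le_one _

theorem typ : Typ := by
  intro n X _ _
  rw [← sum_fiberwise_of_maps_to (t := Fintype.piFinset fun _ : X => range (n + 1)) (g := cnt)
    fun c _ => Fintype.mem_piFinset.2 fun x => mem_range.2 (Nat.lt_succ_of_le
      ((cnt_le c x).trans_eq (Fintype.card_fin n)))]
  refine (sum_le_card_nsmul _ _ 1 fun m _ => Typ_fib m).trans_eq ?_
  simp

end Vale.Agent.P156
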