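import Vale.Agent.P156.Cof
import Vale.Agent.P156.Fwd1
import Vale.Agent.P156.Den
import Vale.Agent.P156.Trf
import Vale.Agent.P156.Spa
import Vale.Agent.P156.Blk1
import Vale.Agent.P156.Blk
import Vale.Agent.P156.GapA
import Vale.Agent.P156.GapB
import Vale.Agent.P156.Trm
import Vale.Agent.P156.Opn
import Vale.Agent.P156.FinD
import Vale.Agent.P156.Dbl
import Vale.Agent.P156.Tor
import Vale.Agent.P156.Enu
import Vale.Agent.P156.Orb
import Vale.Agent.P156.Hit
import Vale.Agent.P156.Exq
import Vale.Agent.P156.Sti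
import Vale.Agent.P156.Haf
import Vale.Agent.P156.Gap
import Vale.Agent.P156.FouA
import Vale.Agent.P156.Fou
import Vale.Agent.P156.Spl
import Vale.Agent.P156.Ncs
import Vale.Agent.P156.Typ
import Vale.Agent.P156.CntC
import Vale.Agent.P156.Itp
import Vale.Agent.P156.Asy
import Vale.Agent.P156.Det
import Vale.Agent.P156.Dpr
import Vale.Agent.P156.Sm
import Vale.Agent.P156.Ncm
import Vale.Agent.P156.Mom
import Vale.Agent.P156.Ker
import Vale.Agent.P156.DfE1
import Vale.Agent.P156.DfE
import Vale.Agent.P156.Fwd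
import Vale.Agent.P156.Bwd
import Vale.Agent.P156.Smp
import Vale.Agent.P156.Drt
import Vale.Agent.P156.Dsum
import Vale.Agent.P156.Sch
import Vale.Agent.P156.AlgA
import Vale.Agent.P156.AlgB
import Vale.Agent.P156.Root
import Vale.Agent.P156.Ext
import Vale.Agent.P156.PartB
import Vale.Agent.P156.PartA

namespace Vale.Agent.P156

theorem mom_all : Mom :=
  mom (fou fouA) spl ncs
    (blk (blk1 (haf orb exq cof sti) opn cntC itp) (gap gapA gapB) typ asy)
    (ncm (det_pf cntC) (sm trm_pf) (spa (den cntC) (dpr hit cntC)))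

theorem partA_all : PartA :=
  partA mom_all ker (smp (dfe (dfe1 hit)) (dbl (fwd fwd1 cntC) (bwd cntC)))
    (trf orb (dsum drt) enu (tor drt)) (dsum drt) sch algA algB ext_pf

theorem partB_all : PartB := partB partA_all (finD algA root)

end Vale.Agent.P156
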