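import Vale.Agent.P156.Stm

namespace Vale.Agent.P156

open Finset Polynomial

theorem Sti_up (m : ℕ) : (m.factorial : ℝ) ≤ 3 * ((m : ℝ) + 1) * ((m : ℝ) / Real.exp 1) ^ m := by
  rcases m with _ | k
  · norm_num
  have h : Stirling.stirlingSeq (k + 1) ≤ Stirling.stirlingSeq 1 :=
    Stirling.stirlingSeq'_antitone (Nat.zero_le k)
  rw [Stirling.stirlingSeq_one, Stirling.stirlingSeq, div_le_iff₀ (by positivity)] at h
  refine h.trans ?_
  rw [← mul_assoc]
  refine mul_le_mul_of_nonneg_right ?_ (by positivity)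
  have h1 : √(2 * ((k + 1 : ℕ) : ℝ)) = √2 * √((k + 1 : ℕ) : ℝ) := Real.sqrt_mul (by norm_num) _
  have h2 : (0 : ℝ) < √2 := by positivity
  have h3 : √((k + 1 : ℕ) : ℝ) ≤ ((k + 1 : ℕ) : ℝ) + 1 := by
    rw [Real.sqrt_le_left (by positivity)]
    have : (0 : ℝ) ≤ ((k + 1 : ℕ) : ℝ) := Nat.cast_nonneg _
    nlinarith
  have h4 : Real.exp 1 ≤ 3 := Real.exp_one_lt_d9.le.trans (by norm_num)
  rw [h1, ← mul_assoc, div_mul_cancel₀ _ h2.ne']
  exact mul_le_mul h4 h3 (Real.sqrt_nonneg _) (by norm_num)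

theorem Sti_low (N : ℕ) : ((N : ℝ) / Real.exp 1) ^ N ≤ (N.factorial : ℝ) := by
  have h := Real.pow_div_factorial_le_exp (N : ℝ) (Nat.cast_nonneg N) N
  rw [div_le_iff₀ (by positivity)] at h
  rw [div_pow, ← Real.exp_nat_mul, mul_one, div_le_iff₀ (Real.exp_pos _), mul_comm]
  exact h

theorem sti : Sti := by
  intro X _ m N hN
  have hle : ∀ x, m x ≤ N := fun x => hN ▸ single_le_sum (f := m) (fun _ _ => Nat.zero_le _)
    (mem_univ x)
  have h1 : ∀ x, ((m x).factorial : ℝ) ≤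
      3 * ((N : ℝ) + 1) * (((N : ℝ) / Real.exp 1) ^ m x * ((m x : ℝ) / N) ^ m x) := by
    intro x
    have e : ((m x : ℝ) / Real.exp 1) ^ m x =
        ((N : ℝ) / Real.exp 1) ^ m x * ((m x : ℝ) / N) ^ m x := by
      rcases Nat.eq_zero_or_pos (m x) with h | h
      · rw [h, pow_zero, pow_zero, pow_zero, one_mul]
      · have : (0 : ℝ) < N := by exact_mod_cast h.trans_le (hle x)
        rw [← mul_pow]
        congr 1
        field_simp
    rw [← e]
    refine (Sti_up (m x)).trans (mul_le_mul_of_nonneg_right ?_ (by positivity))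
    have : (m x : ℝ) ≤ N := by exact_mod_cast hle x
    linarith
  rw [Nat.cast_prod]
  refine (prod_le_prod (fun x _ => Nat.cast_nonneg _) fun x _ => h1 x).trans ?_
  rw [prod_mul_distrib, prod_const, prod_mul_distrib, card_univ, prod_pow_eq_pow_sum, hN,
    mul_assoc (_ ^ _)]
  refine mul_le_mul_of_nonneg_left (mul_le_mul_of_nonneg_right (Sti_low N) ?_) (by positivity)
  exact prod_nonneg fun x _ => by positivity

end Vale.Agent.P156
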