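import Vale.Agent.P156.Bas

namespace Vale.Agent.P156

open Finset Polynomial

def Hit : Prop := ∀ (α ι : Type) [Fintype α] [DecidableEq α] [Fintype ι] (x : ι → α)
  (B : ι → Finset α), Function.Injective x →
  (hitS x B).card ≤ (∏ i, (B i).card) * (Fintype.card α - Fintype.card ι).factorial

def Orb : Prop := ∀ (R α X : Type) [CommSemiring R] [Fintype α] [DecidableEq α] [Fintype X]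
  [DecidableEq X] (g0 : α → X) (F : (α → X) → R),
  ∑ σ : Equiv.Perm α, F (g0 ∘ σ) =
    ((∏ x, (cnt g0 x).factorial : ℕ) : R) * ∑ g ∈ Ty (cnt g0), F g

def Exq : Prop := ∀ (M : ℕ) (X : Type) [Fintype X] [DecidableEq X] (K : X → X → ℂ) (z : X → ℂ),
  Qf K z ^ M = ∑ g : Pos M → X, (∏ x, z x ^ cnt g x) * W K g

def Cof : Prop := ∀ (Y X : Type) [Fintype Y] [Fintype X] [DecidableEq X] (a : Y → ℂ)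
  (c : Y → X → ℕ) (m : X → ℕ) (r : X → ℝ) (B : ℝ), (∀ x, 0 ≤ r x) →
  (∀ z : X → ℂ, (∀ x, ‖z x‖ = r x) → ‖∑ y, (∏ x, z x ^ c y x) * a y‖ ≤ B) →
  (∏ x, r x ^ m x) * ‖∑ y ∈ univ.filter (fun y => ∀ x, c y x = m x), a y‖ ≤ B

def Sti : Prop := ∀ (X : Type) [Fintype X] (m : X → ℕ) (N : ℕ), ∑ x, m x = N →
  ((∏ x, (m x).factorial : ℕ) : ℝ) ≤
    (3 * ((N : ℝ) + 1)) ^ Fintype.card X * (N.factorial : ℝ) * ∏ x, ((m x : ℝ) / N) ^ m x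

def Haf : Prop := ∀ (M : ℕ) (X : Type) [Fintype X] [DecidableEq X] (K : X → X → ℂ)
  (g0 : Pos M → X) (r : X → ℝ) (ρ : ℝ), (∀ x, 0 ≤ r x) →
  (∀ z : X → ℂ, (∀ x, ‖z x‖ = r x) → ‖Qf K z‖ ≤ ρ) →
  (∏ x, r x ^ cnt g0 x) * ‖∑ σ : Equiv.Perm (Pos M), W K (g0 ∘ σ)‖ ≤
    (3 * (((2 * M : ℕ) : ℝ) + 1)) ^ Fintype.card X * ((2 * M).factorial : ℝ) *
      (∏ x, ((cnt g0 x : ℝ) / ((2 * M : ℕ) : ℝ)) ^ cnt g0 x) * ρ ^ M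

def Opn : Prop := ∀ (p : ℕ) [Fact p.Prime] (z : ZMod p × ZMod p → ℂ),
  ‖Qf (Kp p) z‖ ≤ p * ∑ x, ‖z x‖ ^ 2

def GapA : Prop := ∀ (p : ℕ) [Fact p.Prime] (ν : ZMod p × ZMod p → ℝ)
  (z : ZMod p × ZMod p → ℂ), ∑ x, ν x = 1 → (∀ x, ‖z x‖ = ν x) →
  ‖Qf (Kp p) z‖ ^ 4 ≤
    ∑ x, ∑ x', ∑ y, ∑ y', ν x * ν x' * ν y * ν y' * (Kp p (x - x') (y - y')).re

def GapB : Prop := ∀ (p : ℕ) [Fact p.Prime], 2 < p → ∀ δ : ℝ, 0 < δ →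
  ∃ κ : ℝ, 0 ≤ κ ∧ κ < 1 ∧ ∀ ν : ZMod p × ZMod p → ℝ, (∀ x, 0 ≤ ν x) → ∑ x, ν x = 1 →
    (∀ a, ∑ s, ν (a, s) ≤ 1 - δ) → (∀ s, ∑ a, ν (a, s) ≤ 1 - δ) →
    ∑ x, ∑ x', ∑ y, ∑ y', ν x * ν x' * ν y * ν y' * (Kp p (x - x') (y - y')).re ≤ κ

def Gap : Prop := ∀ (p : ℕ) [Fact p.Prime], 2 < p → ∀ δ : ℝ, 0 < δ →
  ∃ ρ : ℝ, 0 ≤ ρ ∧ ρ < 1 ∧ ∀ ν : ZMod p × ZMod p → ℝ, ∑ x, ν x = 1 →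
    (∀ a, ∑ s, ν (a, s) ≤ 1 - δ) → (∀ s, ∑ a, ν (a, s) ≤ 1 - δ) →
    ∀ z : ZMod p × ZMod p → ℂ, (∀ x, ‖z x‖ = ν x) → ‖Qf (Kp p) z‖ ≤ ρ

def FouA : Prop := ∀ (p : ℕ) [Fact p.Prime] (M n : ℕ) (e : ZMod p) (τ : Pos M → Fin n)
  (v w : Fin n → ZMod p), Phi e τ v w = ZMod.stdAddChar
    (∑ u, w u * ((∑ x ∈ univ.filter (fun x => τ x = u), v (τ (fl x))) - e * v u))

def Fou : Prop := ∀ (p : ℕ) [Fact p.Prime] (M n : ℕ) (e : ZMod p) (τ : Pos M → Fin n)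
  (v : Fin n → ZMod p), (Sol e τ v → ∑ w, Phi e τ v w = (p : ℂ) ^ n) ∧
    (¬ Sol e τ v → ∑ w, Phi e τ v w = 0) ∧ (∀ w, Phi e τ v w = Phi e τ w v) ∧
    ∀ w, ‖Phi e τ v w‖ = 1

def Spl : Prop := ∀ (Y : Type) [Fintype Y] [DecidableEq Y] (S : Finset Y) (Φ : Y → Y → ℂ)
  (I : Y → ℝ) (Q B : ℝ), (∀ v, ∑ w, Φ v w = ((Q * I v : ℝ) : ℂ)) → (∀ v w, Φ v w = Φ w v) →
  (∀ v w, ‖Φ v w‖ ≤ B) →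
  Q * ∑ v, I v ≤ 2 * Q * ∑ v ∈ S, I v + B * (S.card : ℝ) ^ 2 + ∑ v ∈ Sᶜ, ∑ w ∈ Sᶜ, ‖Φ v w‖

def Ncs : Prop := ∀ (p : ℕ) [Fact p.Prime], 2 < p → ∃ δ0 : ℝ, 0 < δ0 ∧ ∀ δ : ℝ, 0 < δ → δ ≤ δ0 →
  ∀ n : ℕ, ((NC n p δ).card : ℝ) ^ 2 ≤ (p : ℝ) ^ 2 * (1 / 2) ^ n * (p : ℝ) ^ n

def Typ : Prop := ∀ (n : ℕ) (X : Type) [Fintype X] [DecidableEq X],
  ∑ c : Fin n → X, qq c ≤ ((n : ℝ) + 1) ^ Fintype.card X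

def CntC : Prop := ∀ (d M n : ℕ) (t : Pos M → Fin n), Fib d t →
  (∀ (X : Type) [DecidableEq X] (c : Fin n → X) (x : X), cnt (c ∘ t) x = d * cnt c x) ∧
  ∀ U : Finset (Fin n), (univ.filter fun x => t x ∈ U).card = d * U.card

def Itp : Prop := ∀ (a y ρ : ℝ) (d n M : ℕ), 0 ≤ a → 0 ≤ y → 0 ≤ ρ → 2 ≤ d → 2 * M = n * d →
  a ≤ ρ ^ M → a ^ 2 ≤ y ^ d → a ≤ ρ ^ (M - n) * y

def Asy : Prop := ∀ (k d : ℕ) (ρ ε : ℝ), 0 ≤ ρ → ρ < 1 → 0 < ε → ∃ n0 : ℕ, ∀ n : ℕ, n0 ≤ n →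
  ∀ m : ℕ, n ≤ 2 * m → (3 * (((n * d : ℕ) : ℝ) + 1)) ^ k * ((n : ℝ) + 1) ^ k * ρ ^ m ≤ ε

def Blk1 : Prop := ∀ (p : ℕ) [Fact p.Prime] (d n M : ℕ) (t : Pos M → Fin n)
  (c : Fin n → ZMod p × ZMod p) (ρ : ℝ), 2 ≤ d → 0 < n → 2 * M = n * d → Fib d t → 0 ≤ ρ →
  (∀ z : ZMod p × ZMod p → ℂ, (∀ x, ‖z x‖ = (cnt c x : ℝ) / n) → ‖Qf (Kp p) z‖ ≤ ρ) →
  ‖∑ σ : Equiv.Perm (Pos M), W (Kp p) ((c ∘ t) ∘ σ)‖ ≤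
    (3 * (((n * d : ℕ) : ℝ) + 1)) ^ (p ^ 2) * ((2 * M).factorial : ℝ) *
      (ρ ^ (M - n) * (qq c * (p : ℝ) ^ n))

def Blk : Prop := ∀ (p : ℕ) [Fact p.Prime], 2 < p → ∀ d : ℕ, 3 ≤ d → ∀ δ ε : ℝ, 0 < δ → 0 < ε →
  ∃ n0 : ℕ, ∀ n : ℕ, n0 ≤ n → ∀ (M : ℕ) (t : Pos M → Fin n) (e : ZMod p), 2 * M = n * d →
  Fib d t → ∑ v ∈ (NC n p δ)ᶜ, ∑ w ∈ (NC n p δ)ᶜ, ‖Phb e t v w‖ ≤
    ε * (p : ℝ) ^ n * ((2 * M).factorial : ℝ)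

def Det : Prop := ∀ (p : ℕ) [Fact p.Prime] (d n M : ℕ) (τ : Pos M → Fin n) (e c : ZMod p)
  (v : Fin n → ZMod p), Fib d τ → Sol e τ v → e ≠ (d : ZMod p) → c ≠ 0 →
  cnt v c ≤ d * (n - cnt v c)

def Den : Prop := ∀ (p : ℕ) [Fact p.Prime] (d n M : ℕ) (τ : Pos M → Fin n) (e : ZMod p)
  (v : Fin n → ZMod p), 3 ≤ d → Fib d τ → Sol e τ v → ∃ U : Finset (Fin n),
  (∀ u, v u ≠ 0 → u ∈ U) ∧ 2 * U.card ≤ (d + 2) * (n - cnt v 0) ∧ 6 * U.card ≤ 5 * inn τ U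

def Dpr : Prop := ∀ (d n M : ℕ) (t : Pos M → Fin n) (U : Finset (Fin n)) (k : ℕ), Fib d t →
  nP t (fun τ => k ≤ inn τ U) ≤ M.choose k * (d * U.card) ^ (2 * k) * (2 * M - 2 * k).factorial

def Trm : Prop := ∀ d p n M u : ℕ, 1 ≤ u → 3 ≤ d → 2 * M = n * d → 6 * d * u ≤ n →
  (trm d p n M u : ℝ) ^ 5 ≤
    ((2 * M).factorial : ℝ) ^ 5 * ((3 * (p : ℝ)) ^ 5 * (6 * (d : ℝ)) ^ 6 * u / n) ^ u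

def Sm : Prop := ∀ d p : ℕ, 3 ≤ d → ∃ δ1 : ℝ, 0 < δ1 ∧ ∀ ε : ℝ, 0 < ε → ∃ n0 : ℕ, ∀ n : ℕ, n0 ≤ n →
  ∀ M : ℕ, 2 * M = n * d → ∀ s : Finset ℕ, (∀ u ∈ s, 1 ≤ u ∧ (u : ℝ) ≤ δ1 * n) →
  ∑ u ∈ s, (trm d p n M u : ℝ) ≤ ε * ((2 * M).factorial : ℝ)

def Spa : Prop := ∀ (p : ℕ) [Fact p.Prime] (d n M L : ℕ) (t : Pos M → Fin n) (e : ZMod p)
  (S : Finset (Fin n → ZMod p)), 3 ≤ d → Fib d t →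
  (∀ v ∈ S, v ≠ 0 ∧ (d + 2) * (n - cnt v 0) ≤ 2 * L) →
  ∑ v ∈ S, nP t (fun τ => Sol e τ v) ≤ ∑ u ∈ Icc 1 L, trm d p n M u

def Ncm : Prop := ∀ (p : ℕ) [Fact p.Prime] (d : ℕ), 3 ≤ d → ∃ δ2 : ℝ, 0 < δ2 ∧ ∀ δ : ℝ, 0 < δ →
  δ ≤ δ2 → ∀ ε : ℝ, 0 < ε → ∃ n0 : ℕ, ∀ n : ℕ, n0 ≤ n → ∀ (M : ℕ) (t : Pos M → Fin n)
  (e : ZMod p), 2 * M = n * d → Fib d t → e ≠ (d : ZMod p) →
  ∑ v ∈ NC n p δ, (nP t (fun τ => Sol e τ v) : ℝ) ≤ (1 + ε) * ((2 * M).factorial : ℝ)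

def Mom : Prop := ∀ (p : ℕ) [Fact p.Prime], 2 < p → ∀ d : ℕ, 3 ≤ d → ∃ n0 : ℕ, ∀ n : ℕ, n0 ≤ n →
  ∀ (M : ℕ) (t : Pos M → Fin n) (e : ZMod p), 2 * M = n * d → Fib d t → e ≠ (d : ZMod p) →
  ∑ v : Fin n → ZMod p, (nP t (fun τ => Sol e τ v) : ℝ) ≤ 3 * ((2 * M).factorial : ℝ)

def Ker : Prop := ∀ (p : ℕ) [Fact p.Prime] (n M : ℕ) (t : Pos M → Fin n) (e : ZMod p),
  p * nP t (fun τ => ∃ v, v ≠ 0 ∧ Sol e τ v) ≤ ∑ v : Fin n → ZMod p, nP t (fun τ => Sol e τ v)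

def DfE1 : Prop := ∀ (d n M : ℕ) (t : Pos M → Fin n), Fib d t →
  (∀ j : Fin M, nP t (fun τ => τ (j, false) = τ (j, true)) ≤ n * d ^ 2 * (2 * M - 2).factorial) ∧
  ∀ i j : Fin M, i ≠ j →
    nP t (fun τ => ed τ i = ed τ j) ≤ 2 * n ^ 2 * d ^ 4 * (2 * M - 4).factorial

def DfE : Prop := ∀ (d n M : ℕ) (t : Pos M → Fin n), 2 * M = n * d → 3 ≤ M → Fib d t →
  ∑ σ : Equiv.Perm (Pos M), Df (t ∘ σ) ≤ (d + 4 * d ^ 2) * (2 * M).factorial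

def Fwd1 : Prop := ∀ (n M : ℕ) (τ : Pos M → Fin n) (j : Fin M) (y : Pos M), Dfc τ j → y.1 ≠ j →
  τ y ≠ τ (fl y) → τ y ≠ τ (j, true) → τ y ∉ Nb τ (τ (j, true)) → τ (fl y) ≠ τ (j, false) →
  τ (fl y) ∉ Nb τ (τ (j, false)) → y ∈ goodS τ j

def Fwd : Prop := ∀ (d n M : ℕ) (τ : Pos M → Fin n) (j : Fin M), Fib d τ → Dfc τ j →
  2 * M ≤ (goodS τ j).card + (2 + 2 * Df τ + 2 * (d * (d + 1)))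

def Bwd : Prop := ∀ (d n M : ℕ) (τ : Pos M → Fin n) (j : Fin M), Fib d τ →
  τ (j, false) ≠ τ (j, true) → (bwdS τ j).card ≤ d * (d + 1)

def Dbl : Prop := ∀ (d n M k : ℕ) (t : Pos M → Fin n), Fib d t → 1 ≤ k →
  2 + 2 * k + 2 * (d * (d + 1)) ≤ M →
  nP t (fun τ => Df τ = k) ≤ d * (d + 1) * nP t (fun τ => Df τ < k)

def Smp : Prop := ∀ d : ℕ, ∃ c : ℝ, 0 < c ∧ ∃ M0 : ℕ, ∀ (n M : ℕ) (t : Pos M → Fin n), M0 ≤ M →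
  2 * M = n * d → Fib d t → c * ((2 * M).factorial : ℝ) ≤ (nP t Simp : ℝ)

def Drt : Prop := ∀ (n M : ℕ) (τ : Pos M → Fin n), Simp τ →
  (∀ x y, τ x = τ y → τ (fl x) = τ (fl y) → x = y) ∧
  ∀ u w, (Gr τ).Adj u w ↔ ∃ x, τ x = u ∧ τ (fl x) = w

def Dsum : Prop := ∀ (n M : ℕ) (τ : Pos M → Fin n), Simp τ →
  (∀ u, ((Gr τ).neighborSet u).ncard = cnt τ u) ∧
  ∀ (R : Type) [AddCommMonoid R] (f : Fin n → R) (u : Fin n),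
    ∑ x ∈ univ.filter (fun x => τ x = u), f (τ (fl x)) = ∑ w ∈ nbr (Gr τ) u, f w

def Enu : Prop := ∀ (n d M : ℕ) (G : SimpleGraph (Fin n)), G ∈ Reg n d → 2 * M = n * d →
  ∃ τ : Pos M → Fin n, Simp τ ∧ Gr τ = G

def Tor : Prop := ∀ (n M : ℕ) (τ0 : Pos M → Fin n), Simp τ0 →
  (fibS M (Gr τ0)).card = (comS M).card

def Trf : Prop := ∀ (d n M : ℕ) (t : Pos M → Fin n), 2 * M = n * d → Fib d t →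
  ∃ F : ℕ, 0 < F ∧ ∀ P : SimpleGraph (Fin n) → Prop,
    ({G ∈ Reg n d | P G} : Set (SimpleGraph (Fin n))).ncard * F =
      nP t (fun τ => Simp τ ∧ P (Gr τ))

def Sch : Prop := ∀ f : ℤ[X], 0 < f.natDegree → ∀ a : ℤ, f.eval a ≠ 0 → ∀ B : ℕ,
  ∃ p : ℕ, p.Prime ∧ B < p ∧ ∃ k : ℤ, (p : ℤ) ∣ f.eval k ∧ ¬ (p : ℤ) ∣ k - a

def AlgA : Prop := ∀ (n : ℕ) (G : SimpleGraph (Fin n)) (E : ℝ), IsEig G E →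
  (chi G).Monic ∧ IsIntegral ℤ E ∧ minpoly ℤ E ∣ chi G

def AlgB : Prop := ∀ (n : ℕ) (G : SimpleGraph (Fin n)) (p : ℕ) [Fact p.Prime] (k : ℤ),
  (p : ℤ) ∣ (chi G).eval k →
  ∃ v : Fin n → ZMod p, v ≠ 0 ∧ ∀ u, ∑ w ∈ nbr G u, v w = (k : ZMod p) * v u

def Root : Prop := ∀ (n d : ℕ) (G : SimpleGraph (Fin n)), G ∈ Reg n d → ∀ z : ℂ,
  aeval z (chi G) = 0 → ‖z‖ ≤ d

def FinD : Prop := ∀ d D : ℕ,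
  Set.Finite {E : ℝ | (∃ n : ℕ, ∃ G ∈ Reg n d, IsEig G E) ∧ DegLe D E}

def Ext : Prop := ∀ d n M : ℕ, 2 * M = n * d → ∃ t : Pos M → Fin n, Fib d t

def PartA : Prop := ∀ d : ℕ, 3 ≤ d → ∀ E : ℝ, E ≠ d → ∀ ε : ℝ, 0 < ε → ∃ n0 : ℕ, ∀ n : ℕ, n0 ≤ n →
  Even (n * d) → (Reg n d).Nonempty ∧ prob n d (fun G => IsEig G E) ≤ ε

def PartB : Prop := ∀ d : ℕ, 3 ≤ d → ∀ D : ℕ, ∀ ε : ℝ, 0 < ε → ∃ n0 : ℕ, ∀ n : ℕ, n0 ≤ n →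
  Even (n * d) → prob n d (fun G => ∃ E : ℝ, E ≠ d ∧ DegLe D E ∧ IsEig G E) ≤ ε

end Vale.Agent.P156
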